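import Mathlib

namespace Vale.Agent.P072

/-- reaction vector `y' - y` of the reaction `y → y'` -/
def vec {d : ℕ} (ρ : (Fin d → ℕ) × (Fin d → ℕ)) : Fin d → ℝ :=
  fun i => (ρ.2 i : ℝ) - (ρ.1 i : ℝ)

/-- the mass-action vector field -/
def massAction {d : ℕ} (R : Finset ((Fin d → ℕ) × (Fin d → ℕ)))
    (k : (Fin d → ℕ) × (Fin d → ℕ) → ℝ) (x : Fin d → ℝ) : Fin d → ℝ :=
  ∑ ρ ∈ R, (k ρ * ∏ i, x i ^ ρ.1 i) • vec ρ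

def WeaklyReversible {d : ℕ} (R : Finset ((Fin d → ℕ) × (Fin d → ℕ))) : Prop :=
  ∀ ρ ∈ R, Relation.TransGen (fun y z => (y, z) ∈ R) ρ.2 ρ.1

def stoich {d : ℕ} (R : Finset ((Fin d → ℕ) × (Fin d → ℕ))) : Submodule ℝ (Fin d → ℝ) :=
  Submodule.span ℝ {v | ∃ ρ ∈ R, v = vec ρ}

def posClass {d : ℕ} (R : Finset ((Fin d → ℕ) × (Fin d → ℕ))) (c : Fin d → ℝ) :
    Set (Fin d → ℝ) :=
  {x | x - c ∈ stoich R ∧ ∀ i, 0 < x i}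

/-- `x` solves `x' = f x` on the time set `s` -/
def IsSol {d : ℕ} (f : (Fin d → ℝ) → Fin d → ℝ) (s : Set ℝ) (x : ℝ → Fin d → ℝ) : Prop :=
  ∀ t ∈ s, HasDerivWithinAt x (f (x t)) s t

def Permanent {d : ℕ} (f : (Fin d → ℝ) → Fin d → ℝ) (P : Set (Fin d → ℝ)) : Prop :=
  (∀ x₀ ∈ P, ∃ x, x 0 = x₀ ∧ IsSol f (Set.Ici 0) x ∧ ∀ t, 0 ≤ t → x t ∈ P) ∧
  (∀ T, 0 < T → ∀ x, IsSol f (Set.Ico 0 T) x → x 0 ∈ P →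
    ∃ y, IsSol f (Set.Ici 0) y ∧ (∀ t, 0 ≤ t → y t ∈ P) ∧ ∀ t, 0 ≤ t → t < T → x t = y t) ∧
  ∃ K, IsCompact K ∧ K ⊆ P ∧ ∀ x, IsSol f (Set.Ici 0) x → x 0 ∈ P →
    ∃ t₀, ∀ t, t₀ ≤ t → x t ∈ K

end Vale.Agent.P072
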