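import Vale.Agent.P072.Flux

namespace Vale.Agent.P072

open Finset Filter Real Topology Set

variable {d : ℕ}

def RSol (g : (Fin d → ℝ) → Fin d → ℝ) (x : ℝ → Fin d → ℝ) (a b : ℝ) : Prop :=
  ContinuousOn x (Icc a b) ∧ ∀ t ∈ Ico a b, HasDerivWithinAt x (g (x t)) (Ici t) t

lemma RSol.mono {g : (Fin d → ℝ) → Fin d → ℝ} {x : ℝ → Fin d → ℝ} {a b a' b' : ℝ}
    (h : RSol g x a b) (ha : a ≤ a') (hb : b' ≤ b) : RSol g x a' b' :=
  ⟨h.1.mono (Icc_subset_Icc ha hb), fun t ht => h.2 t ⟨ha.trans ht.1, ht.2.trans_le hb⟩⟩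

noncomputable def phi (Λ : Finset ((Fin d → ℝ) × ℝ)) (h : Λ.Nonempty) (x : Fin d → ℝ) : ℝ :=
  Λ.sup' h fun l => l.1 ⬝ᵥ x - l.2

lemma le_phi {Λ : Finset ((Fin d → ℝ) × ℝ)} (h : Λ.Nonempty) (x : Fin d → ℝ) {l} (hl : l ∈ Λ) :
    l.1 ⬝ᵥ x - l.2 ≤ phi Λ h x := le_sup' (fun l : (Fin d → ℝ) × ℝ => l.1 ⬝ᵥ x - l.2) hl

lemma phi_le {Λ : Finset ((Fin d → ℝ) × ℝ)} (h : Λ.Nonempty) (x : Fin d → ℝ) {c : ℝ} :
    phi Λ h x ≤ c ↔ ∀ l ∈ Λ, l.1 ⬝ᵥ x - l.2 ≤ c := sup'_le_iff _ _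

lemma continuous_phi {Λ : Finset ((Fin d → ℝ) × ℝ)} (h : Λ.Nonempty) : Continuous (phi Λ h) := by
  unfold phi
  apply Continuous.finset_sup'_apply
  intro l _
  exact (continuous_const.dotProduct continuous_id).sub continuous_const

lemma hasDeriv_dot {x : ℝ → Fin d → ℝ} {x' : Fin d → ℝ} {s : Set ℝ} {t : ℝ}
    (h : HasDerivWithinAt x x' s t) (v : Fin d → ℝ) :
    HasDerivWithinAt (fun t => v ⬝ᵥ x t) (v ⬝ᵥ x') s t := by
  unfold dotProduct
  exact HasDerivWithinAt.fun_sum fun i _ => ((hasDerivWithinAt_pi.mp h) i).const_mul (v i)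

lemma phi_decay {g : (Fin d → ℝ) → Fin d → ℝ} {x : ℝ → Fin d → ℝ} {a b κ : ℝ} (hab : a ≤ b)
    (hx : RSol g x a b) {Λ : Finset ((Fin d → ℝ) × ℝ)} (h : Λ.Nonempty)
    (H : ∀ t ∈ Ico a b, ∀ l ∈ Λ, l.1 ⬝ᵥ x t - l.2 = phi Λ h (x t) → l.1 ⬝ᵥ g (x t) ≤ -κ) :
    phi Λ h (x b) ≤ phi Λ h (x a) - κ * (b - a) := by
  have := image_le_of_liminf_slope_right_le_deriv_boundary (f := fun t => phi Λ h (x t))
    (a := a) (b := b) ((continuous_phi h).comp_continuousOn hx.1)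
    (B := fun t => phi Λ h (x a) - κ * (t - a)) (B' := fun _ => -κ) (by simp) (by fun_prop)
    (fun t _ => by
      simpa using ((((hasDerivAt_id t).sub_const a).const_mul κ).const_sub
        (phi Λ h (x a))).hasDerivWithinAt) ?_ (right_mem_Icc.mpr hab)
  · exact this
  intro t ht r hr
  apply Eventually.frequently
  have e : ∀ᶠ z in 𝓝[>] t, ∀ l ∈ Λ, l.1 ⬝ᵥ x z - l.2 < phi Λ h (x t) + r * (z - t) := by
    rw [eventually_all_finset]
    intro l hl
    have hd := hasDeriv_dot (hx.2 t ht) l.1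
    rcases (le_phi h (x t) hl).eq_or_lt with h1 | h1
    · have h2 := H t ht l hl h1
      have h3 := (hasDerivWithinAt_iff_tendsto_slope' (show t ∉ Ioi t by simp)).mp
        (hd.mono Ioi_subset_Ici_self)
      filter_upwards [h3.eventually (eventually_lt_nhds (show _ < r by linarith)),
        self_mem_nhdsWithin] with z hz hz'
      have h4 : 0 < z - t := sub_pos.mpr hz'
      rw [slope_def_field, div_lt_iff₀ h4] at hz
      linarith
    · have h2 : ContinuousWithinAt (fun z => l.1 ⬝ᵥ x z - l.2) (Ioi t) t :=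
        (hd.continuousWithinAt.mono Ioi_subset_Ici_self).sub continuousWithinAt_const
      have h3 : ContinuousWithinAt (fun z => phi Λ h (x t) + r * (z - t)) (Ioi t) t := by
        fun_prop
      exact Filter.Tendsto.eventually_lt h2 h3 (by simpa using h1)
  filter_upwards [e, self_mem_nhdsWithin] with z hz hz'
  have h4 : 0 < z - t := sub_pos.mpr hz'
  rw [slope_def_field, div_lt_iff₀ h4]
  obtain ⟨l, hl, h5⟩ := exists_mem_eq_sup' h (fun l : (Fin d → ℝ) × ℝ => l.1 ⬝ᵥ x z - l.2)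
  have := hz l hl
  have h6 : phi Λ h (x z) = l.1 ⬝ᵥ x z - l.2 := h5
  linarith

lemma sub_mem_of_rsol {g : (Fin d → ℝ) → Fin d → ℝ} {x : ℝ → Fin d → ℝ} {a b : ℝ}
    (hx : RSol g x a b) {S : Submodule ℝ (Fin d → ℝ)} (hg : ∀ y, g y ∈ S) :
    ∀ t ∈ Icc a b, x t - x a ∈ S := by
  intro t ht
  rw [← Subspace.forall_mem_dualAnnihilator_apply_eq_zero_iff]
  intro φ hφ
  let ψ : (Fin d → ℝ) →L[ℝ] ℝ := LinearMap.toContinuousLinearMap φ
  have := constant_of_has_deriv_right_zero (f := fun t => ψ (x t))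
    (ψ.continuous.comp_continuousOn hx.1) (fun s hs => by
      have h1 := ψ.hasFDerivAt.comp_hasDerivWithinAt s (hx.2 s hs)
      have h2 : ψ (g (x s)) = 0 := (Submodule.mem_dualAnnihilator φ).mp hφ _ (hg _)
      rw [h2] at h1
      exact h1) t ht
  rw [map_sub]
  exact sub_eq_zero.mpr this

lemma isClosed_Box (N : ℝ) : IsClosed (Box N : Set (Fin d → ℝ)) := by
  have : (Box N : Set (Fin d → ℝ)) = Icc (fun _ => exp (-N)) (fun _ => exp N) := by
    ext x; simp only [Box, Set.mem_setOf_eq, Set.mem_Icc, Pi.le_def, forall_and]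
  rw [this]; exact isClosed_Icc

lemma isCompact_Box (N : ℝ) : IsCompact (Box N : Set (Fin d → ℝ)) := by
  have : (Box N : Set (Fin d → ℝ)) = Icc (fun _ => exp (-N)) (fun _ => exp N) := by
    ext x; simp only [Box, Set.mem_setOf_eq, Set.mem_Icc, Pi.le_def, forall_and]
  rw [this]; exact isCompact_Icc

lemma convex_Box (N : ℝ) : Convex ℝ (Box N : Set (Fin d → ℝ)) := by
  have : (Box N : Set (Fin d → ℝ)) = Icc (fun _ => exp (-N)) (fun _ => exp N) := by
    ext x; simp only [Box, Set.mem_setOf_eq, Set.mem_Icc, Pi.le_def, forall_and]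
  rw [this]; exact convex_Icc _ _

lemma Box_mono {N M : ℝ} (h : N ≤ M) : (Box N : Set (Fin d → ℝ)) ⊆ Box M := fun _ hx i =>
  ⟨(exp_le_exp.mpr (by linarith)).trans (hx i).1, (hx i).2.trans (exp_le_exp.mpr h)⟩

lemma Box_mem_nhds {N M : ℝ} (h : N < M) {x : Fin d → ℝ} (hx : x ∈ Box N) : Box M ∈ 𝓝 x := by
  have : ∀ᶠ y in 𝓝 x, ∀ i, exp (-M) ≤ y i ∧ y i ≤ exp M := by
    rw [eventually_all]
    intro i
    have h1 : exp (-M) < x i := (exp_lt_exp.mpr (by linarith)).trans_le (hx i).1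
    have h2 : x i < exp M := (hx i).2.trans_lt (exp_lt_exp.mpr h)
    exact (continuous_apply i).continuousAt.eventually (Icc_mem_nhds h1 h2)
  exact this

lemma Box_pos {N : ℝ} {x : Fin d → ℝ} (hx : x ∈ Box N) (i : Fin d) : 0 < x i :=
  (exp_pos _).trans_le (hx i).1

/-- a priori bound -/
lemma stay {f g : (Fin d → ℝ) → Fin d → ℝ} {S : Submodule ℝ (Fin d → ℝ)} {c : Fin d → ℝ} {N : ℝ}
    (hN : 0 < N) (hL : Lyap f S c N) (hc : c ∈ Box N) (hg : ∀ y, g y ∈ S)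
    (hfg : ∀ y ∈ Box N, g y = f y) {x : ℝ → Fin d → ℝ} {T : ℝ} (hx : RSol g x 0 T)
    (h0 : x 0 = c) : ∀ t ∈ Icc 0 T, x t ∈ Box N := by
  obtain ⟨Λ, κ, -, h00, h1, h2, h3⟩ := hL
  have hne : Λ.Nonempty := ⟨_, h00⟩
  have hS := sub_mem_of_rsol hx hg
  rw [h0] at hS
  have : Icc 0 T ⊆ {t | x t ∈ Box N} := by
    apply IsClosed.Icc_subset_of_forall_mem_nhdsGT_of_Icc_subset
    · rw [inter_comm]
      exact hx.1.preimage_isClosed_of_isClosed isClosed_Icc (isClosed_Box N)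
    · simpa [h0] using hc
    · intro t ht hsub
      have h4 := phi_decay (κ := 0) ht.1 (hx.mono le_rfl ht.2.le) hne (by
        intro s hs l hl hact
        have hsB : x s ∈ Box N := hsub ⟨hs.1, hs.2.le⟩
        rw [hfg _ hsB, neg_zero]
        exact (h2 _ hsB (hS s ⟨hs.1, (hs.2.trans ht.2).le⟩) l hl
          (fun l' hl' => hact ▸ le_phi hne _ hl')).1)
      have h5 : phi Λ hne (x 0) ≤ 0 := by rw [h0]; exact (phi_le hne c).mpr h1
      have h6 := h3 _ (hsub ⟨ht.1, le_rfl⟩) ((phi_le hne _).mp (by linarith))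
      have h7 := Box_mem_nhds (show N / 2 < N by linarith) h6
      exact ((hx.2 t ht).continuousWithinAt.mono Ioi_subset_Ici_self).eventually h7
  exact fun t ht => this ht

/-- eventual contraction -/
lemma shrink {f : (Fin d → ℝ) → Fin d → ℝ} {S : Submodule ℝ (Fin d → ℝ)} {c : Fin d → ℝ} {N : ℝ}
    (hL : Lyap f S c N) {x : ℝ → Fin d → ℝ} {t0 : ℝ} (hx : ∀ T, RSol f x t0 T)
    (hB : ∀ t, t0 ≤ t → x t ∈ Box N ∧ x t - c ∈ S) :
    ∃ t1, ∀ t, t1 ≤ t → x t ∈ Box (N / 2) := by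
  obtain ⟨Λ, κ, hκ, h00, h1, h2, h3⟩ := hL
  have hne : Λ.Nonempty := ⟨_, h00⟩
  have hnn : ∀ y, 0 ≤ phi Λ hne y := fun y => by simpa using le_phi hne y h00
  obtain ⟨t1, ht1, h4⟩ : ∃ t1, t0 ≤ t1 ∧ phi Λ hne (x t1) ≤ 0 := by
    by_contra hcon
    push Not at hcon
    have hT : t0 ≤ t0 + (phi Λ hne (x t0) / κ + 1) := by
      have := div_nonneg (hnn (x t0)) hκ.le
      linarith
    have h4 := phi_decay (κ := κ) hT (hx _) hne (by
      intro s hs l hl hact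
      exact (h2 _ (hB s hs.1).1 (hB s hs.1).2 l hl
        (fun l' hl' => hact ▸ le_phi hne _ hl')).2 (hact ▸ hcon s hs.1))
    have h5 := hnn (x (t0 + (phi Λ hne (x t0) / κ + 1)))
    have h6 : κ * (t0 + (phi Λ hne (x t0) / κ + 1) - t0) = phi Λ hne (x t0) + κ := by
      field_simp; ring
    linarith
  refine ⟨t1, fun t ht => ?_⟩
  have h5 := phi_decay (κ := 0) ht ((hx t).mono ht1 le_rfl) hne (by
    intro s hs l hl hact
    rw [neg_zero]
    exact (h2 _ (hB s (ht1.trans hs.1)).1 (hB s (ht1.trans hs.1)).2 l hl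
      (fun l' hl' => hact ▸ le_phi hne _ hl')).1)
  exact h3 _ (hB t (ht1.trans ht)).1 ((phi_le hne _).mp (by linarith))

lemma rsol_of_Ico {f : (Fin d → ℝ) → Fin d → ℝ} {x : ℝ → Fin d → ℝ} {T t : ℝ}
    (h : IsSol f (Ico 0 T) x) (ht : t < T) : RSol f x 0 t := by
  refine ⟨fun s hs => (h s ⟨hs.1, hs.2.trans_lt ht⟩).continuousWithinAt.mono
    (Icc_subset_Ico_right ht), fun s hs => ?_⟩
  apply (h s ⟨hs.1, hs.2.trans ht⟩).mono_of_mem_nhdsWithin
  exact mem_of_superset (Ico_mem_nhdsGE (hs.2.trans ht)) (Ico_subset_Ico_left hs.1)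

lemma rsol_of_Ici {f : (Fin d → ℝ) → Fin d → ℝ} {x : ℝ → Fin d → ℝ}
    (h : IsSol f (Ici 0) x) (t : ℝ) : RSol f x 0 t :=
  ⟨fun s hs => (h s hs.1).continuousWithinAt.mono Icc_subset_Ici_self,
    fun s hs => (h s hs.1).mono (Ici_subset_Ici.mpr hs.1)⟩

lemma global_exists {g : (Fin d → ℝ) → Fin d → ℝ} {K L : NNReal} (hK : LipschitzWith K g)
    (hL : ∀ y, ‖g y‖ ≤ L) (c : Fin d → ℝ) : ∃ x, x 0 = c ∧ IsSol g (Ici 0) x := by
  have h1 : ∀ n : ℕ, ∃ α : ℝ → Fin d → ℝ, α 0 = c ∧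
      ∀ t ∈ Icc (0:ℝ) n, HasDerivWithinAt α (g (α t)) (Icc (0:ℝ) n) t := by
    intro n
    have hP : IsPicardLindelof (fun _ => g) (⟨0, left_mem_Icc.mpr (Nat.cast_nonneg n)⟩ : Icc (0:ℝ) n)
        c (L * n) 0 L K :=
      { lipschitzOnWith := fun _ _ => hK.lipschitzOnWith
        continuousOn := fun _ _ => continuousOn_const
        norm_le := fun _ _ y _ => hL y
        mul_max_le := by simp }
    exact hP.exists_eq_forall_mem_Icc_hasDerivWithinAt₀
  choose α hα0 hα using h1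
  have hr : ∀ n : ℕ, RSol g (α n) 0 n := by
    intro n
    refine ⟨fun s hs => (hα n s hs).continuousWithinAt, fun s hs => ?_⟩
    apply (hα n s ⟨hs.1, hs.2.le⟩).mono_of_mem_nhdsWithin
    exact mem_of_superset (Icc_mem_nhdsGE hs.2) (Icc_subset_Icc_left hs.1)
  have heq : ∀ n m : ℕ, ∀ t : ℝ, 0 ≤ t → t ≤ n → t ≤ m → α n t = α m t := by
    intro n m t h0 h1 h2
    have a1 := (hr n).mono le_rfl h1
    have a2 := (hr m).mono le_rfl h2
    exact ODE_solution_unique_of_mem_Icc_right (v := fun _ => g) (s := fun _ => univ)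
      (fun _ _ => hK.lipschitzOnWith) a1.1 a1.2 (fun _ _ => mem_univ _) a2.1 a2.2
      (fun _ _ => mem_univ _) ((hα0 n).trans (hα0 m).symm) (right_mem_Icc.mpr h0)
  refine ⟨fun t => α ⌈t⌉₊ t, hα0 _, fun t ht => ?_⟩
  have ht0 : (0:ℝ) ≤ t := ht
  have hlt : t < ((⌈t⌉₊ + 1 : ℕ) : ℝ) := by
    push_cast; linarith [Nat.le_ceil t]
  have hmem : Icc (0:ℝ) ((⌈t⌉₊ + 1 : ℕ) : ℝ) ∈ 𝓝[Ici 0] t := by
    rw [← Ici_inter_Iic]
    exact inter_mem self_mem_nhdsWithin (mem_nhdsWithin_of_mem_nhds (Iic_mem_nhds hlt))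
  have h2 := (hα (⌈t⌉₊ + 1) t ⟨ht0, hlt.le⟩).mono_of_mem_nhdsWithin hmem
  have h3 : α ⌈t⌉₊ t = α (⌈t⌉₊ + 1) t := heq _ _ t ht0 (Nat.le_ceil t) hlt.le
  rw [← h3] at h2
  refine h2.congr_of_eventuallyEq (f₁ := fun t => α ⌈t⌉₊ t) ?_ h3
  filter_upwards [hmem] with s hs
  exact heq _ _ s hs.1 (Nat.le_ceil s) hs.2

lemma ev_Box (c : Fin d → ℝ) (hc : ∀ i, 0 < c i) : ∀ᶠ N in atTop, c ∈ Box N := by
  refine eventually_all.mpr fun i => ?_
  filter_upwards [ev_lt (c i) (show (0:ℝ) < 1 by norm_num),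
    ev_lt (c i)⁻¹ (show (-1:ℝ) < 0 by norm_num)] with N h1 h2
  rw [zero_mul, exp_zero, inv_mul_lt_iff₀ (hc i)] at h2
  simp at h1 h2
  exact ⟨h2.le, h1.le⟩

theorem permanent {R : Finset ((Fin d → ℕ) × (Fin d → ℕ))} (hR : WeaklyReversible R)
    {k : (Fin d → ℕ) × (Fin d → ℕ) → ℝ} (hk : ∀ ρ ∈ R, 0 < k ρ) (c : Fin d → ℝ)
    (hc : ∀ i, 0 < c i) : Permanent (massAction R k) (posClass R c) := by
  set f := massAction R k with hf
  have hbox : ∀ x0 : Fin d → ℝ, (∀ i, 0 < x0 i) → ∃ N, 0 < N ∧ Lyap f (stoich R) x0 N ∧ x0 ∈ Box N :=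
    fun x0 h => ((eventually_gt_atTop 0).and ((lyap hR hk x0 h).and (ev_Box x0 h))).exists
  have hP : ∀ {x : ℝ → Fin d → ℝ} {T : ℝ}, RSol f x 0 T → x 0 ∈ posClass R c →
      ∀ t ∈ Icc 0 T, x t ∈ posClass R c := by
    intro x T hx h0 t ht
    obtain ⟨N, hN, hL, hB⟩ := hbox _ h0.2
    refine ⟨?_, Box_pos (stay hN hL hB (mass_mem R k) (fun _ _ => rfl) hx rfl t ht)⟩
    have := (stoich R).add_mem (sub_mem_of_rsol hx (mass_mem R k) t ht) h0.1
    simpa using this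
  have hex : ∀ x₀ ∈ posClass R c, ∃ x, x 0 = x₀ ∧ IsSol f (Ici 0) x ∧
      ∀ t, 0 ≤ t → x t ∈ posClass R c := by
    intro x0 h0
    obtain ⟨N, hN, hL, hB⟩ := hbox _ h0.2
    have hle : exp (-N) ≤ exp N := exp_le_exp.mpr (by linarith)
    let cl : (Fin d → ℝ) → Fin d → ℝ := fun y i => max (exp (-N)) (min (exp N) (y i))
    have hcl1 : ∀ y, cl y ∈ Box N := fun y i =>
      ⟨le_max_left _ _, max_le hle (min_le_left _ _)⟩
    have hcl2 : ∀ y ∈ Box N, cl y = y := by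
      intro y hy; funext i
      simp only [cl]
      rw [min_eq_right (hy i).2, max_eq_right (hy i).1]
    have hcl3 : LipschitzWith 1 cl := by
      apply LipschitzWith.of_dist_le_mul
      intro a b
      rw [NNReal.coe_one, one_mul, dist_pi_le_iff dist_nonneg]
      intro i
      have := (((LipschitzWith.id (α := ℝ)).const_min (exp N)).const_max (exp (-N))).dist_le_mul
        (a i) (b i)
      simp only [NNReal.coe_one, one_mul, id] at this
      exact this.trans (dist_le_pi_dist a b i)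
    obtain ⟨K, hK⟩ := (contDiff_mass R k).contDiffOn.exists_lipschitzOnWith one_ne_zero
      (convex_Box N) (isCompact_Box N)
    obtain ⟨L, hL'⟩ := (isCompact_Box N).exists_bound_of_continuousOn
      (contDiff_mass R k).continuous.continuousOn
    have hKg : LipschitzWith (K * 1) (f ∘ cl) := by
      rw [← lipschitzOnWith_univ]
      exact hK.comp hcl3.lipschitzOnWith fun y _ => hcl1 y
    obtain ⟨x, hx0, hx⟩ := global_exists (L := L.toNNReal) hKg
      (fun y => (hL' _ (hcl1 y)).trans (le_coe_toNNReal L)) x0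
    have hin : ∀ t, 0 ≤ t → x t ∈ Box N := fun t ht =>
      stay hN hL hB (g := f ∘ cl) (fun y => mass_mem R k _)
        (fun y hy => by simp [hcl2 y hy]) (rsol_of_Ici hx t) hx0 t (right_mem_Icc.mpr ht)
    have hx' : IsSol f (Ici 0) x := by
      intro t ht
      have := hx t ht
      rwa [Function.comp_apply, hcl2 _ (hin t ht)] at this
    exact ⟨x, hx0, hx', fun t ht => hP (rsol_of_Ici hx' t) (hx0 ▸ h0) t (right_mem_Icc.mpr ht)⟩
  refine ⟨hex, ?_, ?_⟩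
  · intro T hT x hx h0
    obtain ⟨y, hy0, hy, hyP⟩ := hex _ h0
    refine ⟨y, hy, hyP, fun t ht0 ht => ?_⟩
    obtain ⟨N, hN, hL, hB⟩ := hbox _ h0.2
    obtain ⟨K, hK⟩ := (contDiff_mass R k).contDiffOn.exists_lipschitzOnWith one_ne_zero
      (convex_Box N) (isCompact_Box N)
    have a1 := rsol_of_Ico hx ht
    have a2 := rsol_of_Ici hy t
    exact ODE_solution_unique_of_mem_Icc_right (v := fun _ => f) (s := fun _ => Box N)
      (fun _ _ => hK) a1.1 a1.2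
      (fun s hs => stay hN hL hB (mass_mem R k) (fun _ _ => rfl) a1 rfl s ⟨hs.1, hs.2.le⟩)
      a2.1 a2.2
      (fun s hs => stay hN hL hB (mass_mem R k) (fun _ _ => rfl) a2 hy0 s ⟨hs.1, hs.2.le⟩)
      hy0.symm (right_mem_Icc.mpr ht0)
  · obtain ⟨N0, hN0⟩ := eventually_atTop.mp ((lyap hR hk c hc).and (eventually_gt_atTop 0))
    have hpos : 0 < N0 := (hN0 N0 le_rfl).2
    refine ⟨Box N0 ∩ {y | y - c ∈ stoich R}, ?_, fun y hy => ⟨hy.2, Box_pos hy.1⟩, ?_⟩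
    · apply (isCompact_Box N0).inter_right
      exact (stoich R).closed_of_finiteDimensional.preimage (continuous_id.sub continuous_const)
    · intro x hx h0
      have hPx : ∀ t, 0 ≤ t → x t ∈ posClass R c := fun t ht =>
        hP (rsol_of_Ici hx t) h0 t (right_mem_Icc.mpr ht)
      have hind : ∀ j : ℕ, (∃ t0, ∀ t, t0 ≤ t → x t ∈ Box (N0 * 2 ^ j)) →
          ∃ t0, ∀ t, t0 ≤ t → x t ∈ Box N0 := by
        intro j
        induction j with
        | zero => simp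
        | succ j ih =>
          rintro ⟨t0, h⟩
          apply ih
          have h1 : N0 ≤ N0 * 2 ^ (j + 1) := le_mul_of_one_le_right hpos.le (one_le_pow₀ one_le_two)
          obtain ⟨t1, h2⟩ := shrink (hN0 _ h1).1 (t0 := max t0 0)
            (fun T => (rsol_of_Ici hx T).mono (le_max_right _ _) le_rfl)
            (fun t ht => ⟨h t ((le_max_left _ _).trans ht), (hPx t ((le_max_right _ _).trans ht)).1⟩)
          refine ⟨t1, fun t ht => ?_⟩
          have e : N0 * 2 ^ j = N0 * 2 ^ (j + 1) / 2 := by ring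
          rw [e]; exact h2 t ht
      obtain ⟨N, hN, hL, hB⟩ := hbox _ h0.2
      obtain ⟨j, hj⟩ := pow_unbounded_of_one_lt (N / N0) (one_lt_two (α := ℝ))
      obtain ⟨t0, h⟩ := hind j ⟨0, fun t ht => Box_mono
        (by rw [div_lt_iff₀ hpos] at hj; linarith)
        (stay hN hL hB (mass_mem R k) (fun _ _ => rfl) (rsol_of_Ici hx t) rfl t
          (right_mem_Icc.mpr ht))⟩
      exact ⟨max t0 0, fun t ht => ⟨h t ((le_max_left _ _).trans ht),
        (hPx t ((le_max_right _ _).trans ht)).1⟩⟩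

end Vale.Agent.P072
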