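import Mathlib

namespace Vale.Agent.P072

open Finset Filter Real

variable {ι : Type*} [DecidableEq ι]

/-- a label: slope vector and offset depending on the scale -/
abbrev Lab (ι : Type*) := (ι → ℝ) × (ℝ → ℝ)

noncomputable def val (I : Finset ι) (l : Lab ι) (N : ℝ) (x : ι → ℝ) : ℝ :=
  ∑ i ∈ I, l.1 i * x i - l.2 N

def Act (I : Finset ι) (Λ : Finset (Lab ι)) (l : Lab ι) (N : ℝ) (x : ι → ℝ) : Prop :=
  ∀ l' ∈ Λ, val I l' N x ≤ val I l N x

def Good (δ : (ι → ℝ) → ℝ) (I : Finset ι) (v : ι → ℝ) (N : ℝ) (x : ι → ℝ) : Prop :=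
  ∀ i ∈ I, exp ((v i - δ v) * N) ≤ x i ∧ x i ≤ exp ((v i + δ v) * N)

def InBox (I : Finset ι) (a b N : ℝ) (x : ι → ℝ) : Prop :=
  ∀ i ∈ I, exp (a * N) ≤ x i ∧ x i ≤ exp (b * N)

def Basic (I : Finset ι) (q : ι → ℝ) (a b : ℝ) (Λ : Finset (Lab ι)) : Prop :=
  ∀ l ∈ Λ, (∀ i, i ∉ I → l.1 i = q i) ∧ (∀ i ∈ I, a ≤ l.1 i ∧ l.1 i ≤ b) ∧ ∀ N, 0 ≤ l.2 N

def GP (δ : (ι → ℝ) → ℝ) (a : ℝ) (I : Finset ι) (q : ι → ℝ) (b : ℝ) : Prop :=
  ∃ Λ : Finset (Lab ι), Basic I q a b Λ ∧ (∃ l ∈ Λ, ∀ N, l.2 N = 0) ∧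
    ∀ᶠ N in atTop, ∀ x, InBox I a b N x → ∀ l ∈ Λ, Act I Λ l N x → Good δ I l.1 N x

lemma ev_lt (K : ℝ) {s t : ℝ} (h : s < t) : ∀ᶠ N in atTop, K * exp (s * N) < exp (t * N) := by
  have h1 : Tendsto (fun N : ℝ => exp ((t - s) * N)) atTop atTop :=
    tendsto_exp_atTop.comp (tendsto_id.const_mul_atTop (by linarith))
  filter_upwards [h1.eventually_gt_atTop K] with N hN
  have : exp (t * N) = exp ((t - s) * N) * exp (s * N) := by rw [← exp_add]; ring_nf
  rw [this]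
  exact mul_lt_mul_of_pos_right hN (exp_pos _)

def Inv (δ : (ι → ℝ) → ℝ) (a : ℝ) (I : Finset ι) (q : ι → ℝ) (b : ℝ) (m : ℕ) : Prop :=
  ∃ (Λ : Finset (Lab ι)) (τ K : ℝ), 0 < τ ∧ Basic I q a b Λ ∧
    (∀ J ⊆ I, J.card = m → ∃ l ∈ Λ, (∀ i ∈ J, l.1 i = b) ∧ ∀ N, l.2 N = 0) ∧
    (∃ l ∈ Λ, (∀ i ∈ I, l.1 i = b) ∧ ∀ N, 0 ≤ N → l.2 N ≤ K * exp ((b - τ) * N)) ∧
    ∀ᶠ N in atTop, ∀ x, InBox I a (b + τ) N x → ∀ l ∈ Λ, Act I Λ l N x →
      Good δ I l.1 N x ∨ ∃ J ⊆ I, J.card + 1 = m ∧ (∀ i ∈ J, l.1 i = b) ∧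
        ∀ i ∈ I \ J, x i ≤ exp ((b - τ) * N)

lemma inv_base {δ : (ι → ℝ) → ℝ} (hδ : ∀ v, 0 < δ v) {a b : ℝ} (hab : a ≤ b) (I : Finset ι)
    (q : ι → ℝ) : Inv δ a I q b I.card := by
  classical
  let v : ι → ℝ := fun i => if i ∈ I then b else q i
  have hv : ∀ i ∈ I, v i = b := fun i hi => by simp [v, hi]
  refine ⟨{(v, fun _ => 0)}, δ v, 0, hδ v, ?_, ?_, ?_, ?_⟩
  · intro l hl
    rw [mem_singleton] at hl; subst hl
    refine ⟨fun i hi => by simp [v, hi], fun i hi => by simp [hv i hi, hab], fun _ => le_rfl⟩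
  · intro J hJ _
    exact ⟨_, mem_singleton_self _, fun i hi => hv i (hJ hi), fun _ => rfl⟩
  · exact ⟨_, mem_singleton_self _, hv, fun _ _ => by simp⟩
  · refine Eventually.of_forall fun N x hx l hl _ => ?_
    rw [mem_singleton] at hl; subst hl
    by_cases h : ∀ i ∈ I, exp ((b - δ v) * N) ≤ x i
    · left
      intro i hi
      simp only [hv i hi]
      exact ⟨h i hi, (hx i hi).2⟩
    · right
      push Not at h
      obtain ⟨j, hj, hxj⟩ := h
      refine ⟨I.erase j, erase_subset _ _, card_erase_add_one hj,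
        fun i hi => hv i (mem_of_mem_erase hi), fun i hi => ?_⟩
      have : i = j := by
        have hi' := Finset.mem_sdiff.mp hi
        by_contra h; exact hi'.2 (Finset.mem_erase.mpr ⟨h, hi'.1⟩)
      rw [this]; exact hxj.le

lemma val_split {I J : Finset ι} (hJ : J ⊆ I) (l : Lab ι) (N : ℝ) (x : ι → ℝ) {b : ℝ}
    (h : ∀ i ∈ J, l.1 i = b) : val I l N x = b * ∑ i ∈ J, x i + val (I \ J) l N x := by
  unfold val
  rw [← sum_sdiff hJ, mul_sum]
  have : ∑ i ∈ J, l.1 i * x i = ∑ i ∈ J, b * x i := sum_congr rfl fun i hi => by rw [h i hi]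
  rw [this]; ring

lemma inv_step {δ : (ι → ℝ) → ℝ} (hδ : ∀ v, 0 < δ v) {a b : ℝ} (hab : a < b) (I : Finset ι)
    (q : ι → ℝ)
    (H : ∀ J ⊆ I, ∀ σ, 0 < σ → σ ≤ b - a →
      GP δ a (I \ J) (fun i => if i ∈ J then b else q i) (b - σ))
    (m : ℕ) (h : Inv δ a I q b (m + 1)) : Inv δ a I q b m := by
  classical
  obtain ⟨Λ, τ, K, hτ, hB, -, ⟨lf, hlf, hlf1, hlf2⟩, hev⟩ := h
  set θ := τ / 2 with hθ
  set σ := min (τ / 4) (b - a) with hσ
  have hσ0 : 0 < σ := lt_min (by linarith) (by linarith)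
  have hσθ : σ < θ := lt_of_le_of_lt (min_le_left _ _) (by linarith)
  have H' := fun J : I.powerset => H J.1 (mem_powerset.mp J.2) σ hσ0 (min_le_right _ _)
  choose F hF1 hF2 hF3 using H'
  let sh : Lab ι → Lab ι := fun l => (l.1, fun N => l.2 N + exp ((b - θ) * N))
  let T : Finset I.powerset := univ.filter fun J => J.1.card = m
  let Λn := T.biUnion F
  obtain ⟨τ', hτ'0, hτ'σ, hτ'δ⟩ : ∃ τ', 0 < τ' ∧ τ' ≤ σ ∧ ∀ l ∈ Λn, τ' ≤ δ l.1 := by
    by_cases hne : Λn.Nonempty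
    · obtain ⟨l0, -, hl0⟩ := exists_min_image Λn (fun l => δ l.1) hne
      exact ⟨min σ (δ l0.1), lt_min hσ0 (hδ _), min_le_left _ _,
        fun l hl => (min_le_right _ _).trans (hl0 l hl)⟩
    · exact ⟨σ, hσ0, le_rfl, fun l hl => absurd ⟨l, hl⟩ hne⟩
  have hFJ : ∀ J : I.powerset, ∀ l ∈ F J, ∀ i ∈ J.1, l.1 i = b := by
    intro J l hl i hi
    have := (hF1 J l hl).1 i (by simp [hi])
    simpa [hi] using this
  have hBn : Basic I q a b Λn := by
    intro l hl
    obtain ⟨J, -, hl⟩ := mem_biUnion.mp hl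
    have hJ := mem_powerset.mp J.2
    obtain ⟨h1, h2, h3⟩ := hF1 J l hl
    refine ⟨fun i hi => ?_, fun i hi => ?_, h3⟩
    · have hiJ : i ∉ J.1 := fun h => hi (hJ h)
      simpa [hiJ] using h1 i (by simp [hi])
    · by_cases hiJ : i ∈ J.1
      · rw [hFJ J l hl i hiJ]; exact ⟨hab.le, le_rfl⟩
      · have := h2 i (mem_sdiff.mpr ⟨hi, hiJ⟩)
        exact ⟨this.1, by linarith [this.2]⟩
  have hzero : ∀ J ⊆ I, J.card = m → ∃ l ∈ Λn, (∀ i ∈ J, l.1 i = b) ∧ ∀ N, l.2 N = 0 := by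
    intro J hJ hc
    obtain ⟨l, hl, hl0⟩ := hF2 ⟨J, mem_powerset.mpr hJ⟩
    exact ⟨l, mem_biUnion.mpr ⟨⟨J, mem_powerset.mpr hJ⟩, by simp [T, hc], hl⟩,
      hFJ _ l hl, hl0⟩
  have hfull : ∀ N, 0 ≤ N → (sh lf).2 N ≤ (|K| + 1) * exp ((b - θ) * N) := by
    intro N hN
    have h1 := hlf2 N hN
    have h2 : exp ((b - τ) * N) ≤ exp ((b - θ) * N) :=
      exp_le_exp.mpr (mul_le_mul_of_nonneg_right (by linarith) hN)
    have h3 : K * exp ((b - τ) * N) ≤ |K| * exp ((b - θ) * N) :=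
      (mul_le_mul_of_nonneg_right (le_abs_self K) (exp_pos _).le).trans
        (mul_le_mul_of_nonneg_left h2 (abs_nonneg K))
    simp only [sh]; linarith
  refine ⟨Λ.image sh ∪ Λn, τ', |K| + 1, hτ'0, ?_, ?_, ?_, ?_⟩
  · intro l hl
    rcases mem_union.mp hl with hl | hl
    · obtain ⟨l', hl', rfl⟩ := mem_image.mp hl
      obtain ⟨h1, h2, h3⟩ := hB l' hl'
      exact ⟨h1, h2, fun N => add_nonneg (h3 N) (exp_pos _).le⟩
    · exact hBn l hl
  · intro J hJ hc
    obtain ⟨l, hl, h⟩ := hzero J hJ hc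
    exact ⟨l, mem_union_right _ hl, h⟩
  · refine ⟨sh lf, mem_union_left _ (mem_image_of_mem _ hlf), hlf1, fun N hN => ?_⟩
    refine (hfull N hN).trans (mul_le_mul_of_nonneg_left ?_ (by positivity))
    exact exp_le_exp.mpr (mul_le_mul_of_nonneg_right (by linarith) hN)
  · have e1 := ev_lt (I.card * (b - a)) (show b - τ < b - θ by linarith)
    have e2 := ev_lt ((|K| + 1) / σ) (show b - θ < b - σ by linarith)
    have e3 : ∀ᶠ N in atTop, ∀ J : I.powerset, ∀ x, InBox (I \ J.1) a (b - σ) N x →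
        ∀ l ∈ F J, Act (I \ J.1) (F J) l N x → Good δ (I \ J.1) l.1 N x :=
      eventually_all.mpr hF3
    filter_upwards [hev, e1, e2, e3, eventually_ge_atTop 0] with N hev e1 e2 e3 hN
    intro x hx l hl hact
    have hxpos : ∀ i ∈ I, 0 < x i := fun i hi => (exp_pos _).trans_le (hx i hi).1
    rcases mem_union.mp hl with hl | hl
    · obtain ⟨l', hl', rfl⟩ := mem_image.mp hl
      have hx' : InBox I a (b + τ) N x := fun i hi => ⟨(hx i hi).1, (hx i hi).2.trans
        (exp_le_exp.mpr (mul_le_mul_of_nonneg_right (by linarith) hN))⟩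
      have hact' : Act I Λ l' N x := by
        intro l2 hl2
        have := hact (sh l2) (mem_union_left _ (mem_image_of_mem _ hl2))
        simp only [val, sh] at this ⊢
        linarith
      rcases hev x hx' l' hl' hact' with h | ⟨J, hJ, hc, hJb, hsm⟩
      · exact Or.inl h
      · exfalso
        obtain ⟨l2, hl2, hl2b, hl20⟩ := hzero J hJ (by omega)
        have h1 := hact l2 (mem_union_right _ hl2)
        rw [val_split hJ l2 N x hl2b, val_split hJ (sh l') N x hJb] at h1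
        simp only [val, sh, hl20] at h1
        have h2 : ∑ i ∈ I \ J, l'.1 i * x i - ∑ i ∈ I \ J, l2.1 i * x i ≤
            I.card * (b - a) * exp ((b - τ) * N) := by
          rw [← sum_sub_distrib]
          have : ∀ i ∈ I \ J, l'.1 i * x i - l2.1 i * x i ≤ (b - a) * exp ((b - τ) * N) := by
            intro i hi
            have hiI := (mem_sdiff.mp hi).1
            have h3 := ((hB l' hl').2.1 i hiI).2
            have h4 := ((hBn l2 hl2).2.1 i hiI).1
            calc l'.1 i * x i - l2.1 i * x i = (l'.1 i - l2.1 i) * x i := by ring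
              _ ≤ (b - a) * x i := mul_le_mul_of_nonneg_right (by linarith) (hxpos i hiI).le
              _ ≤ _ := mul_le_mul_of_nonneg_left (hsm i hi) (by linarith)
          refine (sum_le_card_nsmul _ _ _ this).trans ?_
          rw [nsmul_eq_mul, mul_assoc]
          exact mul_le_mul_of_nonneg_right (by exact_mod_cast card_le_card sdiff_subset)
            (mul_nonneg (by linarith) (exp_pos _).le)
        have h3 := (hB l' hl').2.2 N
        linarith
    · obtain ⟨J, hJT, hlJ⟩ := mem_biUnion.mp hl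
      have hJ := mem_powerset.mp J.2
      have hJc : J.1.card = m := by simpa [T] using hJT
      have hJb := hFJ J l hlJ
      have h1 := hact (sh lf) (mem_union_left _ (mem_image_of_mem _ hlf))
      rw [val_split hJ l N x hJb, val_split hJ (sh lf) N x (fun i hi => hlf1 i (hJ hi))] at h1
      have h2 := hfull N hN
      have h3 := (hF1 J l hlJ).2.2 N
      have h4 : σ * ∑ i ∈ I \ J.1, x i ≤
          ∑ i ∈ I \ J.1, (sh lf).1 i * x i - ∑ i ∈ I \ J.1, l.1 i * x i := by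
        rw [← sum_sub_distrib, mul_sum]
        apply sum_le_sum
        intro i hi
        have hiI := (mem_sdiff.mp hi).1
        have h5 := ((hF1 J l hlJ).2.1 i hi).2
        have h6 : (sh lf).1 i = b := hlf1 i hiI
        rw [h6]
        nlinarith [hxpos i hiI]
      have h5 : ∀ i ∈ I \ J.1, x i ≤ exp ((b - σ) * N) := by
        intro i hi
        have h6 : x i ≤ ∑ i ∈ I \ J.1, x i :=
          single_le_sum (fun j hj => (hxpos j (mem_sdiff.mp hj).1).le) hi
        have h7 : σ * x i ≤ (|K| + 1) * exp ((b - θ) * N) := by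
          simp only [val] at h1
          nlinarith
        have h8 : x i ≤ (|K| + 1) / σ * exp ((b - θ) * N) := by
          rw [div_mul_eq_mul_div, le_div_iff₀ hσ0]; linarith
        linarith
      have hg : Good δ (I \ J.1) l.1 N x := by
        apply e3 J x (fun i hi => ⟨(hx i (mem_sdiff.mp hi).1).1, h5 i hi⟩) l hlJ
        intro l2 hl2
        have := hact l2 (mem_union_right _ (mem_biUnion.mpr ⟨J, hJT, hl2⟩))
        rw [val_split hJ l N x hJb, val_split hJ l2 N x (hFJ J l2 hl2)] at this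
        linarith
      have hd := hτ'δ l hl
      by_cases h : ∀ i ∈ J.1, exp ((b - τ') * N) ≤ x i
      · left
        intro i hi
        by_cases hiJ : i ∈ J.1
        · rw [hJb i hiJ]
          exact ⟨(exp_le_exp.mpr (mul_le_mul_of_nonneg_right (by linarith) hN)).trans (h i hiJ),
            (hx i hi).2.trans (exp_le_exp.mpr (mul_le_mul_of_nonneg_right (by linarith) hN))⟩
        · exact hg i (mem_sdiff.mpr ⟨hi, hiJ⟩)
      · right
        push Not at h
        obtain ⟨j, hj, hxj⟩ := h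
        refine ⟨J.1.erase j, (erase_subset _ _).trans hJ, by rw [card_erase_add_one hj, hJc],
          fun i hi => hJb i (mem_of_mem_erase hi), fun i hi => ?_⟩
        by_cases hij : i = j
        · rw [hij]; exact hxj.le
        · have : i ∈ I \ J.1 := by
            have hi' := Finset.mem_sdiff.mp hi
            exact Finset.mem_sdiff.mpr ⟨hi'.1, fun h => hi'.2 (Finset.mem_erase.mpr ⟨hij, h⟩)⟩
          exact (h5 i this).trans (exp_le_exp.mpr (mul_le_mul_of_nonneg_right (by linarith) hN))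

lemma gp_of_inv {δ : (ι → ℝ) → ℝ} {a b : ℝ} {I : Finset ι} {q : ι → ℝ}
    (h : Inv δ a I q b 0) : ∃ τ, 0 < τ ∧ ∀ b', b ≤ b' → b' ≤ b + τ → GP δ a I q b' := by
  obtain ⟨Λ, τ, K, hτ, hB, hz, -, hev⟩ := h
  refine ⟨τ, hτ, fun b' h1 h2 => ⟨Λ, ?_, ?_, ?_⟩⟩
  · intro l hl
    obtain ⟨g1, g2, g3⟩ := hB l hl
    exact ⟨g1, fun i hi => ⟨(g2 i hi).1, (g2 i hi).2.trans h1⟩, g3⟩
  · obtain ⟨l, hl, -, h⟩ := hz ∅ (empty_subset _) rfl
    exact ⟨l, hl, h⟩
  · filter_upwards [hev, eventually_ge_atTop 0] with N hev hN x hx l hl hact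
    rcases hev x (fun i hi => ⟨(hx i hi).1, (hx i hi).2.trans
      (exp_le_exp.mpr (mul_le_mul_of_nonneg_right h2 hN))⟩) l hl hact with h | ⟨J, -, h, -⟩
    · exact h
    · omega

lemma gp_start {δ : (ι → ℝ) → ℝ} (hδ : ∀ v, 0 < δ v) (a : ℝ) (I : Finset ι) (q : ι → ℝ) :
    ∃ τ, 0 < τ ∧ ∀ b', a ≤ b' → b' ≤ a + τ → GP δ a I q b' := by
  classical
  let v : ι → ℝ := fun i => if i ∈ I then a else q i
  have hv : ∀ i ∈ I, v i = a := fun i hi => by simp [v, hi]
  refine ⟨δ v, hδ v, fun b' h1 h2 => ⟨{(v, fun _ => 0)}, ?_, ⟨_, mem_singleton_self _, fun _ => rfl⟩, ?_⟩⟩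
  · intro l hl
    rw [mem_singleton] at hl; subst hl
    refine ⟨fun i hi => by simp [v, hi], fun i hi => by simp [hv i hi, h1], fun _ => le_rfl⟩
  · filter_upwards [eventually_ge_atTop 0] with N hN x hx l hl _
    rw [mem_singleton] at hl; subst hl
    intro i hi
    simp only [hv i hi]
    exact ⟨(exp_le_exp.mpr (mul_le_mul_of_nonneg_right (by linarith [hδ v]) hN)).trans (hx i hi).1,
      (hx i hi).2.trans (exp_le_exp.mpr (mul_le_mul_of_nonneg_right h2 hN))⟩

theorem gauge {δ : (ι → ℝ) → ℝ} (hδ : ∀ v, 0 < δ v) (a : ℝ) (I : Finset ι) :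
    ∀ (q : ι → ℝ) (b : ℝ), a ≤ b → GP δ a I q b := by
  induction I using Finset.strongInduction with
  | _ I ih =>
  intro q B haB
  let A : Set ℝ := {b | a ≤ b ∧ b ≤ B ∧ ∀ b', a ≤ b' → b' ≤ b → GP δ a I q b'}
  obtain ⟨τ0, hτ0, h0⟩ := gp_start hδ a I q
  have hA : a ∈ A := ⟨le_rfl, haB, fun b' h1 h2 => h0 b' h1 (by linarith)⟩
  have hbdd : BddAbove A := ⟨B, fun b hb => hb.2.1⟩
  set b := sSup A with hb
  have hab : a ≤ b := le_csSup hbdd hA
  have hbB : b ≤ B := csSup_le ⟨a, hA⟩ fun b hb => hb.2.1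
  have hlt : ∀ b', a ≤ b' → b' < b → GP δ a I q b' := by
    intro b' h1 h2
    obtain ⟨c, hc, h3⟩ := exists_lt_of_lt_csSup ⟨a, hA⟩ h2
    exact hc.2.2 b' h1 h3.le
  obtain ⟨τ, hτ, h1⟩ : ∃ τ, 0 < τ ∧ ∀ b', b ≤ b' → b' ≤ b + τ → GP δ a I q b' := by
    rcases hab.eq_or_lt with h | h
    · rw [← h]; exact ⟨τ0, hτ0, h0⟩
    · apply gp_of_inv
      have H : ∀ J ⊆ I, ∀ σ, 0 < σ → σ ≤ b - a →
          GP δ a (I \ J) (fun i => if i ∈ J then b else q i) (b - σ) := by
        intro J hJ σ h1 h2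
        rcases J.eq_empty_or_nonempty with rfl | hne
        · simpa using hlt (b - σ) (by linarith) (by linarith)
        · exact ih _ (sdiff_ssubset hJ hne) _ _ (by linarith)
      have : ∀ k, k ≤ I.card → Inv δ a I q b (I.card - k) := by
        intro k
        induction k with
        | zero => intro _; exact inv_base hδ hab I q
        | succ k ihk =>
          intro hk
          apply inv_step hδ h I q H
          have : I.card - (k + 1) + 1 = I.card - k := by omega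
          rw [this]; exact ihk (by omega)
      simpa using this I.card le_rfl
  have h2 : min (b + τ) B ∈ A := by
    refine ⟨le_min (by linarith) haB, min_le_right _ _, fun b' h3 h4 => ?_⟩
    by_cases h5 : b' < b
    · exact hlt b' h3 h5
    · exact h1 b' (not_lt.mp h5) (h4.trans (min_le_left _ _))
  have h3 : min (b + τ) B ≤ b := le_csSup hbdd h2
  have h4 : B ≤ b := by
    rcases min_le_iff.mp h3 with h | h
    · linarith
    · exact h
  exact h1 B hbB (by linarith)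

end Vale.Agent.P072
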