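import Vale.Agent.P072.Defs
import Vale.Agent.P072.Gauge

namespace Vale.Agent.P072

open Finset Filter Real Topology

variable {d : ℕ}

def wt (v : Fin d → ℝ) (y : Fin d → ℕ) : ℝ := ∑ i, v i * y i

def sz (y : Fin d → ℕ) : ℝ := ∑ i, (y i : ℝ)

def GoodAt (δ : ℝ) (v : Fin d → ℝ) (N : ℝ) (x : Fin d → ℝ) : Prop :=
  ∀ i, exp ((v i - δ) * N) ≤ x i ∧ x i ≤ exp ((v i + δ) * N)

lemma mono_bounds {δ N : ℝ} {v x : Fin d → ℝ} (h : GoodAt δ v N x) (y : Fin d → ℕ) :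
    exp ((wt v y - δ * sz y) * N) ≤ ∏ i, x i ^ y i ∧
      ∏ i, x i ^ y i ≤ exp ((wt v y + δ * sz y) * N) := by
  constructor
  · have : (wt v y - δ * sz y) * N = ∑ i, (y i : ℝ) * ((v i - δ) * N) := by
      simp only [wt, sz, mul_sum, ← sum_sub_distrib, sum_mul]
      exact sum_congr rfl fun i _ => by ring
    rw [this, exp_sum]
    apply prod_le_prod (fun i _ => (exp_pos _).le)
    intro i _
    rw [exp_nat_mul]
    exact pow_le_pow_left₀ (exp_pos _).le (h i).1 _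
  · have : (wt v y + δ * sz y) * N = ∑ i, (y i : ℝ) * ((v i + δ) * N) := by
      simp only [wt, sz, mul_sum, ← sum_add_distrib, sum_mul]
      exact sum_congr rfl fun i _ => by ring
    rw [this, exp_sum]
    apply prod_le_prod (fun i _ => pow_nonneg ((exp_pos _).le.trans (h i).1) _)
    intro i _
    rw [exp_nat_mul]
    exact pow_le_pow_left₀ ((exp_pos _).le.trans (h i).1) (h i).2 _

lemma dot_vec (v : Fin d → ℝ) (ρ : (Fin d → ℕ) × (Fin d → ℕ)) :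
    v ⬝ᵥ vec ρ = wt v ρ.2 - wt v ρ.1 := by
  simp [dotProduct, vec, wt, mul_sub, sum_sub_distrib]

lemma dot_mass (v : Fin d → ℝ) (R : Finset ((Fin d → ℕ) × (Fin d → ℕ))) (k) (x : Fin d → ℝ) :
    v ⬝ᵥ massAction R k x = ∑ ρ ∈ R, k ρ * (∏ i, x i ^ ρ.1 i) * (wt v ρ.2 - wt v ρ.1) := by
  simp only [massAction, dotProduct_sum, dotProduct_smul, dot_vec, smul_eq_mul]

lemma exists_down {R : Finset ((Fin d → ℕ) × (Fin d → ℕ))} (w : (Fin d → ℕ) → ℝ) (c : ℝ)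
    {a b : Fin d → ℕ} (h : Relation.TransGen (fun y z => (y, z) ∈ R) a b) (ha : c < w a)
    (hb : w b ≤ c) : ∃ ρ ∈ R, c < w ρ.1 ∧ w ρ.2 ≤ c := by
  induction h with
  | single h => exact ⟨_, h, ha, hb⟩
  | @tail b' c' _ h ih =>
    by_cases h1 : w b' ≤ c
    · exact ih h1
    · exact ⟨_, h, not_le.mp h1, hb⟩

theorem flux {R : Finset ((Fin d → ℕ) × (Fin d → ℕ))} (hR : WeaklyReversible R)
    {k : (Fin d → ℕ) × (Fin d → ℕ) → ℝ} (hk : ∀ ρ ∈ R, 0 < k ρ) (v : Fin d → ℝ) :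
    ∀ᶠ δ in 𝓝[>] (0:ℝ), ∀ᶠ N in atTop, ∀ x, GoodAt δ v N x →
      v ⬝ᵥ massAction R k x ≤ 0 ∧ ((∃ ρ ∈ R, v ⬝ᵥ vec ρ ≠ 0) → v ⬝ᵥ massAction R k x < 0) := by
  classical
  have hd : ∀ ρ ∈ R, wt v ρ.1 < wt v ρ.2 → ∃ ρ' ∈ R, wt v ρ.1 < wt v ρ'.1 ∧ wt v ρ'.2 ≤ wt v ρ.1 :=
    fun ρ hρ h => exists_down (wt v) _ (hR ρ hρ) h le_rfl
  choose! dn hdn1 hdn2 hdn3 using hd
  have e1 : ∀ᶠ δ in 𝓝[>] (0:ℝ), ∀ ρ ∈ R, wt v ρ.1 < wt v ρ.2 →
      wt v ρ.1 + δ * sz ρ.1 < wt v (dn ρ).1 - δ * sz (dn ρ).1 := by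
    rw [eventually_all_finset]
    intro ρ hρ
    by_cases h : wt v ρ.1 < wt v ρ.2
    · have h1 := hdn2 ρ hρ h
      have : ∀ᶠ δ in 𝓝 (0:ℝ), wt v ρ.1 + δ * sz ρ.1 < wt v (dn ρ).1 - δ * sz (dn ρ).1 := by
        apply ContinuousAt.eventually_lt (by fun_prop) (by fun_prop)
        simpa using h1
      exact (this.filter_mono nhdsWithin_le_nhds).mono fun δ h _ => h
    · exact Eventually.of_forall fun δ h' => absurd h' h
  filter_upwards [e1] with δ hδ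
  have e2 : ∀ᶠ N in atTop, ∀ ρ ∈ R, wt v ρ.1 < wt v ρ.2 →
      (2 * R.card * (k ρ * (wt v ρ.2 - wt v ρ.1)) /
        (k (dn ρ) * (wt v (dn ρ).1 - wt v (dn ρ).2))) * exp ((wt v ρ.1 + δ * sz ρ.1) * N) <
        exp ((wt v (dn ρ).1 - δ * sz (dn ρ).1) * N) := by
    rw [eventually_all_finset]
    intro ρ hρ
    by_cases h : wt v ρ.1 < wt v ρ.2
    · exact (ev_lt _ (hδ ρ hρ h)).mono fun N h _ => h
    · exact Eventually.of_forall fun δ h' => absurd h' h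
  filter_upwards [e2] with N hN x hx
  have hxp : ∀ y : Fin d → ℕ, 0 < ∏ i, x i ^ y i := fun y => (exp_pos _).trans_le (mono_bounds hx y).1
  let t : (Fin d → ℕ) × (Fin d → ℕ) → ℝ := fun ρ =>
    k ρ * (∏ i, x i ^ ρ.1 i) * (wt v ρ.2 - wt v ρ.1)
  let D : ℝ := ∑ ρ ∈ R, max (- t ρ) 0
  have hD0 : 0 ≤ D := sum_nonneg fun _ _ => le_max_right _ _
  have hDge : ∀ ρ ∈ R, - t ρ ≤ D := fun ρ hρ =>
    (le_max_left _ _).trans (single_le_sum (f := fun ρ => max (- t ρ) 0)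
      (fun _ _ => le_max_right _ _) hρ)
  have hup : ∀ ρ ∈ R, 2 * R.card * max (t ρ) 0 ≤ D := by
    intro ρ hρ
    by_cases h : wt v ρ.1 < wt v ρ.2
    · have h1 := hN ρ hρ h
      have h2 := hdn2 ρ hρ h
      have h3 := hdn3 ρ hρ h
      have h4 := hk ρ hρ
      have h5 := hk _ (hdn1 ρ hρ h)
      have h6 : 0 < k (dn ρ) * (wt v (dn ρ).1 - wt v (dn ρ).2) := mul_pos h5 (by linarith)
      have h7 : 0 < k ρ * (wt v ρ.2 - wt v ρ.1) := mul_pos h4 (by linarith)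
      rw [div_mul_eq_mul_div, div_lt_iff₀ h6] at h1
      have h8 := (mono_bounds hx ρ.1).2
      have h9 := (mono_bounds hx (dn ρ).1).1
      have ht : 0 ≤ t ρ := (mul_pos (mul_pos h4 (hxp _)) (by linarith)).le
      rw [max_eq_left ht]
      refine le_trans ?_ (hDge _ (hdn1 ρ hρ h))
      have h10 : 2 * R.card * t ρ ≤ 2 * R.card * (k ρ * (wt v ρ.2 - wt v ρ.1)) *
          exp ((wt v ρ.1 + δ * sz ρ.1) * N) := by
        have : 2 * R.card * t ρ = 2 * R.card * (k ρ * (wt v ρ.2 - wt v ρ.1)) * ∏ i, x i ^ ρ.1 i := by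
          simp only [t]; ring
        rw [this]
        exact mul_le_mul_of_nonneg_left h8 (by positivity)
      have h11 : exp ((wt v (dn ρ).1 - δ * sz (dn ρ).1) * N) *
          (k (dn ρ) * (wt v (dn ρ).1 - wt v (dn ρ).2)) ≤ - t (dn ρ) := by
        have : - t (dn ρ) = (∏ i, x i ^ (dn ρ).1 i) *
            (k (dn ρ) * (wt v (dn ρ).1 - wt v (dn ρ).2)) := by simp only [t]; ring
        rw [this]
        exact mul_le_mul_of_nonneg_right h9 h6.le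
      linarith
    · have ht : t ρ ≤ 0 :=
        mul_nonpos_of_nonneg_of_nonpos (mul_pos (hk ρ hρ) (hxp _)).le (by linarith)
      rw [max_eq_right ht, mul_zero]; exact hD0
  have hsum : v ⬝ᵥ massAction R k x ≤ - D / 2 := by
    rw [dot_mass]
    have h1 : ∑ ρ ∈ R, t ρ = ∑ ρ ∈ R, max (t ρ) 0 - D := by
      simp only [D, ← sum_sub_distrib]
      exact sum_congr rfl fun ρ _ => (max_zero_sub_max_neg_zero_eq_self _).symm
    change ∑ ρ ∈ R, t ρ ≤ _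
    rw [h1]
    rcases R.eq_empty_or_nonempty with h | h
    · simp [D, h]
    · have hc : (0:ℝ) < R.card := by exact_mod_cast card_pos.mpr h
      have h2 : ∑ ρ ∈ R, 2 * R.card * max (t ρ) 0 ≤ ∑ ρ ∈ R, D := sum_le_sum hup
      rw [← mul_sum, sum_const, nsmul_eq_mul] at h2
      have : 2 * ∑ ρ ∈ R, max (t ρ) 0 ≤ D := by
        apply le_of_mul_le_mul_left _ hc; linarith
      linarith
  refine ⟨by linarith, fun ⟨ρ, hρ, hne⟩ => ?_⟩
  rw [dot_vec] at hne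
  have : ∃ ρ' ∈ R, wt v ρ'.2 < wt v ρ'.1 := by
    rcases lt_or_gt_of_ne hne with h | h
    · exact ⟨ρ, hρ, by linarith⟩
    · have h' : wt v ρ.1 < wt v ρ.2 := by linarith
      exact ⟨dn ρ, hdn1 ρ hρ h', by linarith [hdn2 ρ hρ h', hdn3 ρ hρ h']⟩
  obtain ⟨ρ', h1, h2⟩ := this
  have h3 : t ρ' < 0 := mul_neg_of_pos_of_neg (mul_pos (hk _ h1) (hxp _)) (by linarith)
  have := hDge ρ' h1
  linarith

def Box (N : ℝ) : Set (Fin d → ℝ) := {x | ∀ i, exp (-N) ≤ x i ∧ x i ≤ exp N}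

lemma isCompact_GoodAt (δ : ℝ) (v : Fin d → ℝ) (N : ℝ) : IsCompact {x | GoodAt δ v N x} := by
  have : {x | GoodAt δ v N x} =
      Set.Icc (fun i => exp ((v i - δ) * N)) (fun i => exp ((v i + δ) * N)) := by
    ext x; simp only [GoodAt, Set.mem_setOf_eq, Set.mem_Icc, Pi.le_def, forall_and]
  rw [this]; exact isCompact_Icc

lemma contDiff_mass (R : Finset ((Fin d → ℕ) × (Fin d → ℕ))) (k) :
    ContDiff ℝ 1 (massAction R k) := by
  unfold massAction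
  fun_prop

lemma mass_mem (R : Finset ((Fin d → ℕ) × (Fin d → ℕ))) (k) (x : Fin d → ℝ) :
    massAction R k x ∈ stoich R :=
  Submodule.sum_mem _ fun ρ hρ => Submodule.smul_mem _ _ (Submodule.subset_span ⟨ρ, hρ, rfl⟩)

/-- the Lyapunov package at scale `N` -/
def Lyap (f : (Fin d → ℝ) → Fin d → ℝ) (S : Submodule ℝ (Fin d → ℝ)) (c : Fin d → ℝ) (N : ℝ) :
    Prop :=
  ∃ (Λ : Finset ((Fin d → ℝ) × ℝ)) (κ : ℝ), 0 < κ ∧ ((0, 0) ∈ Λ) ∧
    (∀ l ∈ Λ, l.1 ⬝ᵥ c - l.2 ≤ 0) ∧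
    (∀ x ∈ Box N, x - c ∈ S → ∀ l ∈ Λ, (∀ l' ∈ Λ, l'.1 ⬝ᵥ x - l'.2 ≤ l.1 ⬝ᵥ x - l.2) →
      l.1 ⬝ᵥ f x ≤ 0 ∧ (0 < l.1 ⬝ᵥ x - l.2 → l.1 ⬝ᵥ f x ≤ -κ)) ∧
    (∀ x ∈ Box N, (∀ l ∈ Λ, l.1 ⬝ᵥ x - l.2 ≤ 0) → x ∈ Box (N / 2))

theorem lyap {R : Finset ((Fin d → ℕ) × (Fin d → ℕ))} (hR : WeaklyReversible R)
    {k : (Fin d → ℕ) × (Fin d → ℕ) → ℝ} (hk : ∀ ρ ∈ R, 0 < k ρ) (c : Fin d → ℝ)
    (hc : ∀ i, 0 < c i) : ∀ᶠ N in atTop, Lyap (massAction R k) (stoich R) c N := by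
  classical
  have h1 : ∀ v : Fin d → ℝ, ∃ δ, 0 < δ ∧ δ ≤ 1 / 2 ∧ (v ≠ 0 → ∃ i, δ < |v i|) ∧
      ∀ᶠ N in atTop, ∀ x, GoodAt δ v N x →
      v ⬝ᵥ massAction R k x ≤ 0 ∧ ((∃ ρ ∈ R, v ⬝ᵥ vec ρ ≠ 0) → v ⬝ᵥ massAction R k x < 0) := by
    intro v
    have e1 : ∀ᶠ δ in 𝓝[>] (0:ℝ), δ ≤ 1 / 2 :=
      (eventually_le_nhds (by norm_num : (0:ℝ) < 1 / 2)).filter_mono nhdsWithin_le_nhds
    have e2 : ∀ᶠ δ in 𝓝[>] (0:ℝ), v ≠ 0 → ∃ i, δ < |v i| := by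
      by_cases hv : v = 0
      · exact Eventually.of_forall fun _ h => absurd hv h
      · obtain ⟨i, hi⟩ := Function.ne_iff.mp hv
        exact ((eventually_lt_nhds (abs_pos.mpr hi)).filter_mono nhdsWithin_le_nhds).mono
          fun δ h _ => ⟨i, h⟩
    obtain ⟨δ, h⟩ := ((flux hR hk v).and (e1.and (e2.and self_mem_nhdsWithin))).exists
    exact ⟨δ, h.2.2.2, h.2.1, h.2.2.1, h.1⟩
  choose δ hδ0 hδ1 hδ2 hδ3 using h1
  obtain ⟨Λ, -, ⟨l00, hl00, -⟩, hev⟩ := gauge hδ0 (-1) (univ : Finset (Fin d)) 0 1 (by norm_num)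
  have e1 := (eventually_all_finset Λ).mpr fun l _ => hδ3 l.1
  have e2 : ∀ᶠ N in atTop, ∀ l ∈ Λ, GoodAt (δ l.1) l.1 N c → l.1 = 0 := by
    rw [eventually_all_finset]
    intro l _
    by_cases hv : l.1 = 0
    · exact Eventually.of_forall fun _ _ => hv
    · obtain ⟨i, hi⟩ := hδ2 l.1 hv
      rcases lt_abs.mp hi with h | h
      · filter_upwards [ev_lt (c i) (show (0:ℝ) < l.1 i - δ l.1 by linarith)] with N hN hg
        have := (hg i).1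
        simp at hN; linarith
      · filter_upwards [ev_lt (c i)⁻¹ (show l.1 i + δ l.1 < 0 by linarith)] with N hN hg
        have := (hg i).2
        rw [zero_mul, exp_zero, inv_mul_lt_iff₀ (hc i)] at hN
        linarith
  have e3 : ∀ᶠ N in atTop, c ∈ Box N := by
    refine eventually_all.mpr fun i => ?_
    filter_upwards [ev_lt (c i) (show (0:ℝ) < 1 by norm_num),
      ev_lt (c i)⁻¹ (show (-1:ℝ) < 0 by norm_num)] with N h1 h2
    rw [zero_mul, exp_zero, inv_mul_lt_iff₀ (hc i)] at h2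
    simp at h1 h2
    exact ⟨h2.le, h1.le⟩
  filter_upwards [hev, e1, e2, e3, eventually_ge_atTop 0] with N hev e1 e2 e3 hN
  have hv : ∀ (l : Lab (Fin d)) x, val univ l N x = l.1 ⬝ᵥ x - l.2 N := fun l x => rfl
  have hgood : ∀ x ∈ Box N, ∀ l ∈ Λ, Act univ Λ l N x → GoodAt (δ l.1) l.1 N x := by
    intro x hx l hl ha i
    exact hev x (fun i _ => by simpa using hx i) l hl ha i (mem_univ _)
  obtain ⟨l0, hl0, hl0a⟩ := exists_max_image Λ (fun l => val univ l N c) ⟨_, hl00⟩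
  have hl0z : l0.1 = 0 := e2 l0 hl0 (hgood c e3 l0 hl0 hl0a)
  have hκ : ∀ l ∈ Λ, ∃ κ, 0 < κ ∧ ((∃ ρ ∈ R, l.1 ⬝ᵥ vec ρ ≠ 0) →
      ∀ x, GoodAt (δ l.1) l.1 N x → l.1 ⬝ᵥ massAction R k x ≤ -κ) := by
    intro l hl
    by_cases hne : ∃ ρ ∈ R, l.1 ⬝ᵥ vec ρ ≠ 0
    · by_cases hx : {x | GoodAt (δ l.1) l.1 N x}.Nonempty
      · have hcont : Continuous fun x => l.1 ⬝ᵥ massAction R k x :=
          continuous_const.dotProduct (contDiff_mass R k).continuous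
        obtain ⟨x0, hx0, hmax⟩ := (isCompact_GoodAt _ _ _).exists_isMaxOn hx hcont.continuousOn
        refine ⟨-(l.1 ⬝ᵥ massAction R k x0), by linarith [(e1 l hl x0 hx0).2 hne],
          fun _ x hx => ?_⟩
        rw [neg_neg]; exact hmax hx
      · exact ⟨1, one_pos, fun _ x h => absurd ⟨x, h⟩ hx⟩
    · exact ⟨1, one_pos, fun h => absurd h hne⟩
  choose! κ hκ0 hκ1 using hκ
  obtain ⟨lm, hlm, hlmin⟩ := exists_min_image Λ κ ⟨_, hl0⟩
  let g : Lab (Fin d) → (Fin d → ℝ) × ℝ := fun l => (l.1, l.2 N - l0.2 N)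
  have hle : ∀ l ∈ Λ, l.1 ⬝ᵥ c - (l.2 N - l0.2 N) ≤ 0 := by
    intro l hl
    have := hl0a l hl
    simp only [hv, hl0z, zero_dotProduct] at this
    linarith
  refine ⟨Λ.image g, κ lm, hκ0 _ hlm, mem_image.mpr ⟨l0, hl0, by simp [g, hl0z]⟩, ?_, ?_, ?_⟩
  · intro l1 hl1
    obtain ⟨l, hl, rfl⟩ := mem_image.mp hl1
    exact hle l hl
  · intro x hx hxS l1 hl1 ha
    obtain ⟨l, hl, rfl⟩ := mem_image.mp hl1
    have hg := hgood x hx l hl (fun l' hl' => by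
      have := ha (g l') (mem_image_of_mem _ hl')
      simp only [hv, g] at this ⊢; linarith)
    refine ⟨(e1 l hl x hg).1, fun hpos => ?_⟩
    have hne : ∃ ρ ∈ R, l.1 ⬝ᵥ vec ρ ≠ 0 := by
      by_contra hcon
      push Not at hcon
      have h0 : ∀ u ∈ stoich R, l.1 ⬝ᵥ u = 0 := by
        intro u hu
        induction hu using Submodule.span_induction with
        | mem u hu => obtain ⟨ρ, hρ, rfl⟩ := hu; exact hcon ρ hρ
        | zero => simp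
        | add a b _ _ ha hb => rw [dotProduct_add, ha, hb, add_zero]
        | smul a b _ hb => rw [dotProduct_smul, hb, smul_zero]
      have h1 := h0 _ hxS
      rw [dotProduct_sub] at h1
      have h2 := hle l hl
      simp only [g] at hpos
      linarith
    exact (hκ1 l hl hne x hg).trans (neg_le_neg (hlmin l hl))
  · intro x hx hall
    have hg := hgood x hx l0 hl0 (fun l' hl' => by
      have := hall (g l') (mem_image_of_mem _ hl')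
      simp only [hv, g, hl0z, zero_dotProduct] at this ⊢; linarith)
    intro i
    have h1 := hg i
    have h2 := hδ1 l0.1
    have h3 : l0.1 i = 0 := by rw [hl0z]; rfl
    rw [h3] at h1
    exact ⟨(exp_le_exp.mpr (by nlinarith)).trans h1.1, h1.2.trans (exp_le_exp.mpr (by nlinarith))⟩

end Vale.Agent.P072
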