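import Vale.Agent.P072.Defs

namespace Vale.Agent.P072

open MeasureTheory

/-- `x` is a Caratheodory solution of `x' = f t x` on the time set `s`: for every `t ∈ s` the
function `τ ↦ f τ (x τ)` is integrable between `0` and `t`, and
`x t = x 0 + ∫ τ in 0..t, f τ (x τ)`. -/
def IsCSol {d : ℕ} (f : ℝ → (Fin d → ℝ) → Fin d → ℝ) (s : Set ℝ) (x : ℝ → Fin d → ℝ) : Prop :=
  ∀ t ∈ s, IntervalIntegrable (fun τ => f τ (x τ)) volume 0 t ∧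
    x t = x 0 + ∫ τ in (0 : ℝ)..t, f τ (x τ)

/-- time-dependent rates: measurable on `[0, ∞)` with values in `[ε, 1 / ε]` -/
def Admissible {d : ℕ} (R : Finset ((Fin d → ℕ) × (Fin d → ℕ))) (ε : ℝ)
    (k : ℝ → (Fin d → ℕ) × (Fin d → ℕ) → ℝ) : Prop :=
  ∀ ρ ∈ R, AEMeasurable (fun t => k t ρ) (volume.restrict (Set.Ici 0)) ∧
    ∀ t, 0 ≤ t → ε ≤ k t ρ ∧ k t ρ ≤ ε⁻¹

/-- permanence of the nonautonomous system `x' = f t x` on `P` with absorbing set `K` -/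
def PermanentIn {d : ℕ} (f : ℝ → (Fin d → ℝ) → Fin d → ℝ) (P K : Set (Fin d → ℝ)) : Prop :=
  (∀ x₀ ∈ P, ∃ x, x 0 = x₀ ∧ IsCSol f (Set.Ici 0) x ∧ ∀ t, 0 ≤ t → x t ∈ P) ∧
  (∀ T, 0 < T → ∀ x, IsCSol f (Set.Ico 0 T) x → x 0 ∈ P →
    ∃ y, IsCSol f (Set.Ici 0) y ∧ (∀ t, 0 ≤ t → y t ∈ P) ∧ ∀ t, 0 ≤ t → t < T → x t = y t) ∧
  ∀ x, IsCSol f (Set.Ici 0) x → x 0 ∈ P → ∃ t₀, ∀ t, t₀ ≤ t → x t ∈ K

end Vale.Agent.P072
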