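import Vale.Agent.P072.TDefs

namespace Vale.Agent.P072

open Filter Real Topology Set MeasureTheory

variable {d : ℕ}

/-- `x` is the primitive of `g` on `[0, T]` -/
def ISol (g x : ℝ → Fin d → ℝ) (T : ℝ) : Prop :=
  IntervalIntegrable g volume 0 T ∧ ∀ t ∈ Icc 0 T, x t = x 0 + ∫ τ in (0 : ℝ)..t, g τ

lemma ISol.int {g x : ℝ → Fin d → ℝ} {T : ℝ} (h : ISol g x T) {s t : ℝ} (hs : s ∈ Icc 0 T)
    (ht : t ∈ Icc 0 T) : IntervalIntegrable g volume s t := by
  apply h.1.mono_set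
  rw [uIcc_of_le (hs.1.trans hs.2)]
  exact uIcc_subset_Icc hs ht

lemma ISol.cont {g x : ℝ → Fin d → ℝ} {T : ℝ} (h : ISol g x T) (hT : 0 ≤ T) :
    ContinuousOn x (Icc 0 T) := by
  have := intervalIntegral.continuousOn_primitive_interval' h.1 left_mem_uIcc
  rw [uIcc_of_le hT] at this
  exact (continuousOn_const.add this).congr h.2

lemma ISol.sub {g x : ℝ → Fin d → ℝ} {T : ℝ} (h : ISol g x T) {s t : ℝ} (hs : s ∈ Icc 0 T)
    (ht : t ∈ Icc 0 T) : x t - x s = ∫ τ in s..t, g τ := by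
  have h0 : (0 : ℝ) ∈ Icc 0 T := ⟨le_rfl, hs.1.trans hs.2⟩
  rw [h.2 t ht, h.2 s hs, add_sub_add_left_eq_sub,
    intervalIntegral.integral_interval_sub_left (h.int h0 ht) (h.int h0 hs)]

lemma isol_of_csol {f : ℝ → (Fin d → ℝ) → Fin d → ℝ} {s : Set ℝ} {x : ℝ → Fin d → ℝ}
    (h : IsCSol f s x) {T : ℝ} (hT : 0 ≤ T) (hs : Icc 0 T ⊆ s) :
    ISol (fun τ => f τ (x τ)) x T :=
  ⟨(h T (hs ⟨hT, le_rfl⟩)).1, fun t ht => (h t (hs ht)).2⟩

lemma ISol.mem {g x : ℝ → Fin d → ℝ} {T : ℝ} (h : ISol g x T) {S : Submodule ℝ (Fin d → ℝ)}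
    (hg : ∀ τ, g τ ∈ S) : ∀ t ∈ Icc 0 T, x t - x 0 ∈ S := by
  intro t ht
  have h0 : (0 : ℝ) ∈ Icc 0 T := ⟨le_rfl, ht.1.trans ht.2⟩
  rw [← Subspace.forall_mem_dualAnnihilator_apply_eq_zero_iff]
  intro φ hφ
  let ψ : (Fin d → ℝ) →L[ℝ] ℝ := LinearMap.toContinuousLinearMap φ
  change ψ _ = 0
  rw [h.sub h0 ht, ← ψ.intervalIntegral_comp_comm (h.int h0 ht)]
  have : ∀ τ, ψ (g τ) = 0 := fun τ => (Submodule.mem_dualAnnihilator φ).mp hφ _ (hg τ)
  simp [this]

lemma est {a : ℝ → Fin d → ℝ} {lam M t : ℝ} (hl : 0 < lam) (hM : 0 ≤ M) (ht : 0 ≤ t)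
    (h : ∀ τ ∈ Icc 0 t, ‖a τ‖ ≤ M * exp (lam * τ)) :
    ‖∫ τ in (0 : ℝ)..t, a τ‖ ≤ M / lam * exp (lam * t) := by
  have hc : Continuous fun τ => M * exp (lam * τ) := by fun_prop
  refine (intervalIntegral.norm_integral_le_of_norm_le ht
    (Eventually.of_forall fun τ hτ => h τ ⟨hτ.1.le, hτ.2⟩) (hc.intervalIntegrable _ _)).trans ?_
  rw [intervalIntegral.integral_eq_sub_of_hasDerivAt (f := fun τ => M / lam * exp (lam * τ))
    (fun τ _ => ?_) (hc.intervalIntegrable _ _)]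
  · have : 0 ≤ M / lam * exp (lam * 0) := by positivity
    linarith
  · have := (((hasDerivAt_id τ).const_mul lam).exp).const_mul (M / lam)
    refine this.congr_deriv ?_
    simp only [id]
    field_simp

lemma isol_unique {a b x y : ℝ → Fin d → ℝ} {T K : ℝ} (hT : 0 ≤ T) (hK : 0 ≤ K)
    (hx : ISol a x T) (hy : ISol b y T) (h0 : x 0 = y 0)
    (h : ∀ τ ∈ Icc 0 T, ‖a τ - b τ‖ ≤ K * ‖x τ - y τ‖) : x T = y T := by
  have hc : ContinuousOn (fun τ => exp (-((K + 1) * τ)) * ‖x τ - y τ‖) (Icc 0 T) :=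
    ContinuousOn.mul (by fun_prop) ((hx.cont hT).sub (hy.cont hT)).norm
  obtain ⟨s, hs, hmax⟩ := isCompact_Icc.exists_isMaxOn (nonempty_Icc.2 hT) hc
  obtain ⟨m, hm⟩ : ∃ m, m = exp (-((K + 1) * s)) * ‖x s - y s‖ := ⟨_, rfl⟩
  have hm0 : 0 ≤ m := by rw [hm]; positivity
  have h1 : ∀ τ ∈ Icc 0 T, ‖x τ - y τ‖ ≤ m * exp ((K + 1) * τ) := by
    intro τ hτ
    have h2 : exp (-((K + 1) * τ)) * ‖x τ - y τ‖ ≤ m := hm ▸ hmax hτ
    rw [exp_neg, inv_mul_le_iff₀ (exp_pos _)] at h2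
    linarith
  have h00 : (0 : ℝ) ∈ Icc 0 T := ⟨le_rfl, hT⟩
  have h2 : x s - y s = ∫ τ in (0 : ℝ)..s, (a τ - b τ) := by
    rw [intervalIntegral.integral_sub (hx.int h00 hs) (hy.int h00 hs), hx.2 s hs, hy.2 s hs, h0]
    abel
  have h3 := est (a := fun τ => a τ - b τ) (lam := K + 1) (M := K * m) (by linarith)
    (by positivity) hs.1 (fun τ hτ => by
      have hτ' : τ ∈ Icc 0 T := ⟨hτ.1, hτ.2.trans hs.2⟩
      refine (h τ hτ').trans ?_
      rw [mul_assoc]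
      exact mul_le_mul_of_nonneg_left (h1 τ hτ') hK)
  rw [← h2] at h3
  have h4 : m ≤ K * m / (K + 1) := by
    have h5 : m * exp ((K + 1) * s) = ‖x s - y s‖ := by
      rw [hm, exp_neg]; field_simp
    rw [← h5] at h3
    exact le_of_mul_le_mul_right h3 (exp_pos _)
  rw [le_div_iff₀ (by linarith)] at h4
  have h5 : m = 0 := by nlinarith
  have h6 := h1 T ⟨hT, le_rfl⟩
  rw [h5, zero_mul] at h6
  exact sub_eq_zero.1 (norm_le_zero_iff.1 h6)

lemma cexists {g : ℝ → (Fin d → ℝ) → Fin d → ℝ} {K L : ℝ} (hK0 : 0 ≤ K)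
    (hK : ∀ τ, 0 ≤ τ → ∀ y y', ‖g τ y - g τ y'‖ ≤ K * ‖y - y'‖)
    (hL : ∀ τ, 0 ≤ τ → ∀ y, ‖g τ y‖ ≤ L)
    (hm : ∀ y : ℝ → Fin d → ℝ, Continuous y →
      AEStronglyMeasurable (fun τ => g τ (y τ)) (volume.restrict (Ici 0)))
    (c : Fin d → ℝ) : ∃ x, x 0 = c ∧ IsCSol g (Ici 0) x := by
  have hL0 : 0 ≤ L := (norm_nonneg _).trans (hL 0 le_rfl 0)
  have hint : ∀ y : ℝ → Fin d → ℝ, Continuous y → ∀ t, 0 ≤ t →
      IntervalIntegrable (fun τ => g τ (y τ)) volume 0 t := by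
    intro y hy t ht
    rw [intervalIntegrable_iff_integrableOn_Ioc_of_le ht]
    refine IntegrableOn.of_bound (by simp) ((hm y hy).mono_set fun τ hτ => hτ.1.le) L ?_
    rw [ae_restrict_iff' measurableSet_Ioc]
    exact Eventually.of_forall fun τ hτ => hL τ hτ.1.le _
  obtain ⟨lam, hlam⟩ : ∃ lam, lam = 2 * K + 1 := ⟨_, rfl⟩
  have hl : 0 < lam := by linarith
  let up : BoundedContinuousFunction ℝ (Fin d → ℝ) → ℝ → Fin d → ℝ :=
    fun u τ => exp (lam * τ) • u τ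
  have hup : ∀ u, Continuous (up u) := fun u =>
    Continuous.smul (f := fun τ : ℝ => exp (lam * τ)) (by fun_prop) u.continuous
  let F : BoundedContinuousFunction ℝ (Fin d → ℝ) → ℝ → Fin d → ℝ :=
    fun u t => exp (-(lam * t)) • (c + ∫ τ in (0 : ℝ)..t, g τ (up u τ))
  have hFc : ∀ u, ContinuousOn (F u) (Ici 0) := by
    intro u
    refine ContinuousOn.smul (f := fun t : ℝ => exp (-(lam * t))) (by fun_prop)
      (continuousOn_const.add fun t ht => ?_)
    have ht0 : (0 : ℝ) ≤ t := ht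
    have h1 := intervalIntegral.continuousOn_primitive_interval' (hint _ (hup u) (t + 1)
      (by linarith)) left_mem_uIcc
    rw [uIcc_of_le (by linarith)] at h1
    refine (h1 t ⟨ht0, by linarith⟩).mono_of_mem_nhdsWithin ?_
    rw [← Ici_inter_Iic]
    exact inter_mem self_mem_nhdsWithin (mem_nhdsWithin_of_mem_nhds (Iic_mem_nhds (by linarith)))
  have hFb : ∀ u t, 0 ≤ t → ‖F u t‖ ≤ ‖c‖ + L / lam := by
    intro u t ht
    have h1 := est (a := fun τ => g τ (up u τ)) hl hL0 ht (fun τ hτ =>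
      (hL τ hτ.1 _).trans (le_mul_of_one_le_right hL0 (one_le_exp (mul_nonneg hl.le hτ.1))))
    have h2 : ‖c‖ ≤ ‖c‖ * exp (lam * t) :=
      le_mul_of_one_le_right (norm_nonneg _) (one_le_exp (mul_nonneg hl.le ht))
    simp only [F]
    rw [norm_smul, Real.norm_of_nonneg (exp_pos _).le, exp_neg, inv_mul_le_iff₀ (exp_pos _)]
    refine (norm_add_le _ _).trans ?_
    linarith
  let Φ : BoundedContinuousFunction ℝ (Fin d → ℝ) → BoundedContinuousFunction ℝ (Fin d → ℝ) :=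
    fun u => BoundedContinuousFunction.ofNormedAddCommGroup (fun t => F u (max t 0))
      ((hFc u).comp_continuous (by fun_prop) fun t => mem_Ici.2 (le_max_right _ _)) _
      (fun t => hFb u _ (le_max_right _ _))
  have hΦ : ContractingWith (1 / 2) Φ := by
    refine ⟨by norm_num, LipschitzWith.of_dist_le_mul fun u w => ?_⟩
    rw [BoundedContinuousFunction.dist_le (by positivity)]
    intro t
    change dist (F u (max t 0)) (F w (max t 0)) ≤ _
    have ht : 0 ≤ max t 0 := le_max_right _ _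
    generalize max t 0 = s at ht
    have h1 := est (a := fun τ => g τ (up u τ) - g τ (up w τ)) (M := K * dist u w) hl
      (by positivity) ht (fun τ hτ => by
        refine (hK τ hτ.1 _ _).trans ?_
        simp only [up]
        rw [← smul_sub, norm_smul, Real.norm_of_nonneg (exp_pos _).le, mul_assoc,
          mul_comm (exp _)]
        refine mul_le_mul_of_nonneg_left (mul_le_mul_of_nonneg_right ?_ (exp_pos _).le) hK0
        rw [← dist_eq_norm]
        exact BoundedContinuousFunction.dist_coe_le_dist τ)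
    simp only [F]
    rw [dist_eq_norm, ← smul_sub, add_sub_add_left_eq_sub,
      ← intervalIntegral.integral_sub (hint _ (hup u) s ht) (hint _ (hup w) s ht), norm_smul,
      Real.norm_of_nonneg (exp_pos _).le, exp_neg, inv_mul_le_iff₀ (exp_pos _), mul_comm]
    refine h1.trans (mul_le_mul_of_nonneg_right ?_ (exp_pos _).le)
    rw [div_le_iff₀ hl, hlam]
    have := dist_nonneg (x := u) (y := w)
    push_cast
    nlinarith
  obtain ⟨u, hu⟩ : ∃ u, Φ u = u := ⟨_, hΦ.fixedPoint_isFixedPt⟩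
  have h1 : ∀ t, 0 ≤ t → up u t = c + ∫ τ in (0 : ℝ)..t, g τ (up u τ) := by
    intro t ht
    have h2 : u t = F u (max t 0) := by
      conv_lhs => rw [← hu]
      rfl
    rw [max_eq_left ht] at h2
    have h3 : up u t = exp (lam * t) • F u t := by rw [← h2]
    rw [h3]
    simp only [F]
    rw [smul_smul, ← exp_add, add_neg_cancel, exp_zero, one_smul]
  have h0 : up u 0 = c := by simpa using h1 0 le_rfl
  exact ⟨up u, h0, fun t ht => ⟨hint _ (hup u) t ht, by rw [h0]; exact h1 t ht⟩⟩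

end Vale.Agent.P072
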