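import Vale.Agent.P072.TLyap
import Vale.Agent.P072.TOde

namespace Vale.Agent.P072

open Finset Filter Real Topology Set MeasureTheory

variable {d : ℕ}

/-- one-sided growth of every linear functional along `x` is bounded by the envelope `G` -/
def USol (G : (Fin d → ℝ) → (Fin d → ℝ) → ℝ) (x : ℝ → Fin d → ℝ) (a b : ℝ) : Prop :=
  ContinuousOn x (Icc a b) ∧ ∀ t ∈ Ico a b, ∀ v r, G v (x t) < r →
    ∀ᶠ z in 𝓝[>] t, v ⬝ᵥ x z < v ⬝ᵥ x t + r * (z - t)

lemma USol.mono {G : (Fin d → ℝ) → (Fin d → ℝ) → ℝ} {x : ℝ → Fin d → ℝ} {a b a' b' : ℝ}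
    (h : USol G x a b) (ha : a ≤ a') (hb : b' ≤ b) : USol G x a' b' :=
  ⟨h.1.mono (Icc_subset_Icc ha hb), fun t ht => h.2 t ⟨ha.trans ht.1, ht.2.trans_le hb⟩⟩

lemma USol.cw {G : (Fin d → ℝ) → (Fin d → ℝ) → ℝ} {x : ℝ → Fin d → ℝ} {a b : ℝ}
    (h : USol G x a b) {t : ℝ} (ht : t ∈ Ico a b) : ContinuousWithinAt x (Ioi t) t :=
  (h.1 t ⟨ht.1, ht.2.le⟩).mono_of_mem_nhdsWithin
    (mem_of_superset (Ioo_mem_nhdsGT ht.2) fun _ hz => ⟨ht.1.trans hz.1.le, hz.2.le⟩)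

lemma usol_of_isol {G : (Fin d → ℝ) → (Fin d → ℝ) → ℝ} (hG : ∀ v, Continuous (G v))
    {g x : ℝ → Fin d → ℝ} {T : ℝ} (hT : 0 ≤ T) (h : ISol g x T)
    (hle : ∀ τ ∈ Icc 0 T, ∀ v, v ⬝ᵥ g τ ≤ G v (x τ)) : USol G x 0 T := by
  refine ⟨h.cont hT, fun t ht v r hr => ?_⟩
  obtain ⟨r', h1, h2⟩ := exists_between hr
  have ht' : t ∈ Icc 0 T := ⟨ht.1, ht.2.le⟩
  have h3 : ∀ᶠ τ in 𝓝[Icc 0 T] t, G v (x τ) < r' :=
    (((hG v).comp_continuousOn (h.cont hT)) t ht').eventually (eventually_lt_nhds h1)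
  obtain ⟨η, hη, h4⟩ := Metric.eventually_nhds_iff.1 (eventually_nhdsWithin_iff.1 h3)
  let ψ : (Fin d → ℝ) →L[ℝ] ℝ := ∑ i, v i • ContinuousLinearMap.proj i
  have hψ : ∀ y, ψ y = v ⬝ᵥ y := fun y => by simp [ψ, dotProduct]
  filter_upwards [Ioo_mem_nhdsGT (lt_min ht.2 (show t < t + η by linarith))] with z hz
  have hz1 : z < T := hz.2.trans_le (min_le_left _ _)
  have hz2 : z < t + η := hz.2.trans_le (min_le_right _ _)
  have hz' : z ∈ Icc 0 T := ⟨ht.1.trans hz.1.le, hz1.le⟩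
  have hi := h.int ht' hz'
  have h5 : v ⬝ᵥ x z - v ⬝ᵥ x t = ∫ τ in t..z, ψ (g τ) := by
    rw [ψ.intervalIntegral_comp_comm hi, ← h.sub ht' hz', hψ, dotProduct_sub]
  have h6 : ∫ τ in t..z, ψ (g τ) ≤ ∫ τ in t..z, r' := by
    refine intervalIntegral.integral_mono_on hz.1.le
      ⟨ψ.integrable_comp hi.1, ψ.integrable_comp hi.2⟩ intervalIntegrable_const fun τ hτ => ?_
    have hτ' : τ ∈ Icc 0 T := ⟨ht.1.trans hτ.1, hτ.2.trans hz1.le⟩
    rw [hψ]
    refine (hle τ hτ' v).trans (h4 ?_ hτ').le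
    rw [Real.dist_eq, abs_lt]
    constructor <;> linarith [hτ.1, hτ.2]
  rw [intervalIntegral.integral_const, smul_eq_mul] at h6
  have h7 : 0 < z - t := sub_pos.2 hz.1
  nlinarith

lemma uphi_decay {G : (Fin d → ℝ) → (Fin d → ℝ) → ℝ} {x : ℝ → Fin d → ℝ} {a b κ : ℝ}
    (hab : a ≤ b) (hx : USol G x a b) {Λ : Finset ((Fin d → ℝ) × ℝ)} (h : Λ.Nonempty)
    (H : ∀ t ∈ Ico a b, ∀ l ∈ Λ, l.1 ⬝ᵥ x t - l.2 = phi Λ h (x t) → G l.1 (x t) ≤ -κ) :
    phi Λ h (x b) ≤ phi Λ h (x a) - κ * (b - a) := by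
  have := image_le_of_liminf_slope_right_le_deriv_boundary (f := fun t => phi Λ h (x t))
    (a := a) (b := b) ((continuous_phi h).comp_continuousOn hx.1)
    (B := fun t => phi Λ h (x a) - κ * (t - a)) (B' := fun _ => -κ) (by simp) (by fun_prop)
    (fun t _ => by
      simpa using ((((hasDerivAt_id t).sub_const a).const_mul κ).const_sub
        (phi Λ h (x a))).hasDerivWithinAt) ?_ (right_mem_Icc.mpr hab)
  · exact this
  intro t ht r hr
  apply Eventually.frequently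
  have e : ∀ᶠ z in 𝓝[>] t, ∀ l ∈ Λ, l.1 ⬝ᵥ x z - l.2 < phi Λ h (x t) + r * (z - t) := by
    rw [eventually_all_finset]
    intro l hl
    rcases (le_phi h (x t) hl).eq_or_lt with h1 | h1
    · have h2 := H t ht l hl h1
      filter_upwards [hx.2 t ht l.1 r (by linarith)] with z hz
      linarith
    · have h2 : ContinuousWithinAt (fun z => l.1 ⬝ᵥ x z - l.2) (Ioi t) t :=
        (((continuous_const.dotProduct continuous_id).continuousAt.comp_continuousWithinAt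
          (hx.cw ht))).sub continuousWithinAt_const
      have h3 : ContinuousWithinAt (fun z => phi Λ h (x t) + r * (z - t)) (Ioi t) t := by
        fun_prop
      exact Filter.Tendsto.eventually_lt h2 h3 (by simpa using h1)
  filter_upwards [e, self_mem_nhdsWithin] with z hz hz'
  have h4 : 0 < z - t := sub_pos.mpr hz'
  rw [slope_def_field, div_lt_iff₀ h4]
  obtain ⟨l, hl, h5⟩ := exists_mem_eq_sup' h (fun l : (Fin d → ℝ) × ℝ => l.1 ⬝ᵥ x z - l.2)
  have := hz l hl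
  have h6 : phi Λ h (x z) = l.1 ⬝ᵥ x z - l.2 := h5
  linarith

lemma ustay {G H : (Fin d → ℝ) → (Fin d → ℝ) → ℝ} {S : Submodule ℝ (Fin d → ℝ)} {c : Fin d → ℝ}
    {N : ℝ} (hN : 0 < N) (hL : ULyap G S c N) (hc : c ∈ Box N)
    (hfg : ∀ y ∈ Box N, ∀ v, H v y = G v y) {x : ℝ → Fin d → ℝ} {T : ℝ} (hx : USol H x 0 T)
    (h0 : x 0 = c) (hS : ∀ t ∈ Icc 0 T, x t - x 0 ∈ S) : ∀ t ∈ Icc 0 T, x t ∈ Box N := by
  obtain ⟨Λ, κ, -, h00, h1, h2, h3⟩ := hL
  have hne : Λ.Nonempty := ⟨_, h00⟩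
  rw [h0] at hS
  have : Icc 0 T ⊆ {t | x t ∈ Box N} := by
    apply IsClosed.Icc_subset_of_forall_mem_nhdsGT_of_Icc_subset
    · rw [inter_comm]
      exact hx.1.preimage_isClosed_of_isClosed isClosed_Icc (isClosed_Box N)
    · simpa [h0] using hc
    · intro t ht hsub
      have h4 := uphi_decay (κ := 0) ht.1 (hx.mono le_rfl ht.2.le) hne (by
        intro s hs l hl hact
        have hsB : x s ∈ Box N := hsub ⟨hs.1, hs.2.le⟩
        rw [hfg _ hsB, neg_zero]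
        exact (h2 _ hsB (hS s ⟨hs.1, (hs.2.trans ht.2).le⟩) l hl
          (fun l' hl' => hact ▸ le_phi hne _ hl')).1)
      have h5 : phi Λ hne (x 0) ≤ 0 := by rw [h0]; exact (phi_le hne c).mpr h1
      have h6 := h3 _ (hsub ⟨ht.1, le_rfl⟩) ((phi_le hne _).mp (by linarith))
      have h7 := Box_mem_nhds (show N / 2 < N by linarith) h6
      exact (hx.cw ht).eventually h7
  exact fun t ht => this ht

lemma ushrink {G : (Fin d → ℝ) → (Fin d → ℝ) → ℝ} {S : Submodule ℝ (Fin d → ℝ)} {c : Fin d → ℝ}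
    {N : ℝ} (hL : ULyap G S c N) {x : ℝ → Fin d → ℝ} {t0 : ℝ} (hx : ∀ T, USol G x t0 T)
    (hB : ∀ t, t0 ≤ t → x t ∈ Box N ∧ x t - c ∈ S) :
    ∃ t1, ∀ t, t1 ≤ t → x t ∈ Box (N / 2) := by
  obtain ⟨Λ, κ, hκ, h00, h1, h2, h3⟩ := hL
  have hne : Λ.Nonempty := ⟨_, h00⟩
  have hnn : ∀ y, 0 ≤ phi Λ hne y := fun y => by simpa using le_phi hne y h00
  obtain ⟨t1, ht1, h4⟩ : ∃ t1, t0 ≤ t1 ∧ phi Λ hne (x t1) ≤ 0 := by
    by_contra hcon
    push Not at hcon
    have hT : t0 ≤ t0 + (phi Λ hne (x t0) / κ + 1) := by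
      have := div_nonneg (hnn (x t0)) hκ.le
      linarith
    have h4 := uphi_decay (κ := κ) hT (hx _) hne (by
      intro s hs l hl hact
      exact (h2 _ (hB s hs.1).1 (hB s hs.1).2 l hl
        (fun l' hl' => hact ▸ le_phi hne _ hl')).2 (hact ▸ hcon s hs.1))
    have h5 := hnn (x (t0 + (phi Λ hne (x t0) / κ + 1)))
    have h6 : κ * (t0 + (phi Λ hne (x t0) / κ + 1) - t0) = phi Λ hne (x t0) + κ := by
      field_simp; ring
    linarith
  refine ⟨t1, fun t ht => ?_⟩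
  have h5 := uphi_decay (κ := 0) ht ((hx t).mono ht1 le_rfl) hne (by
    intro s hs l hl hact
    rw [neg_zero]
    exact (h2 _ (hB s (ht1.trans hs.1)).1 (hB s (ht1.trans hs.1)).2 l hl
      (fun l' hl' => hact ▸ le_phi hne _ hl')).1)
  exact h3 _ (hB t (ht1.trans ht)).1 ((phi_le hne _).mp (by linarith))

lemma mass_unif (R : Finset ((Fin d → ℕ) × (Fin d → ℕ))) {ε : ℝ} (hε : 0 < ε) (N : ℝ) :
    ∃ K L : ℝ, 0 ≤ K ∧ ∀ k : (Fin d → ℕ) × (Fin d → ℕ) → ℝ, (∀ ρ ∈ R, ε ≤ k ρ ∧ k ρ ≤ ε⁻¹) →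
      (∀ y ∈ Box N, ∀ y' ∈ Box N, ‖massAction R k y - massAction R k y'‖ ≤ K * ‖y - y'‖) ∧
      ∀ y ∈ Box N, ‖massAction R k y‖ ≤ L := by
  have h1 : ∀ ρ : (Fin d → ℕ) × (Fin d → ℕ), ∃ K L : ℝ, 0 ≤ K ∧
      (∀ y ∈ Box N, ∀ y' ∈ Box N, |∏ i, y i ^ ρ.1 i - ∏ i, y' i ^ ρ.1 i| ≤ K * ‖y - y'‖) ∧
      ∀ y ∈ Box N, |∏ i, y i ^ ρ.1 i| ≤ L := by
    intro ρ
    have hc : ContDiff ℝ 1 fun y : Fin d → ℝ => ∏ i, y i ^ ρ.1 i := by fun_prop
    obtain ⟨K, hK⟩ := hc.contDiffOn.exists_lipschitzOnWith one_ne_zero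
      (convex_Box N) (isCompact_Box N)
    obtain ⟨L, hL⟩ := (isCompact_Box N).exists_bound_of_continuousOn hc.continuous.continuousOn
    refine ⟨K, L, K.2, fun y hy y' hy' => ?_, hL⟩
    have := hK.dist_le_mul y hy y' hy'
    rwa [Real.dist_eq, dist_eq_norm] at this
  choose K L hK0 hK hL using h1
  refine ⟨∑ ρ ∈ R, ε⁻¹ * K ρ * ‖vec ρ‖, ∑ ρ ∈ R, ε⁻¹ * L ρ * ‖vec ρ‖,
    sum_nonneg fun ρ _ => by have := hK0 ρ; positivity, fun k hk => ⟨?_, ?_⟩⟩
  · intro y hy y' hy'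
    simp only [massAction]
    rw [← sum_sub_distrib, sum_mul]
    refine norm_sum_le_of_le _ fun ρ hρ => ?_
    have h0 : 0 ≤ k ρ := hε.le.trans (hk ρ hρ).1
    rw [← sub_smul, ← mul_sub, norm_smul, norm_mul, Real.norm_of_nonneg h0, Real.norm_eq_abs]
    calc _ ≤ ε⁻¹ * (K ρ * ‖y - y'‖) * ‖vec ρ‖ := by
          gcongr
          · exact (hk ρ hρ).2
          · exact hK ρ y hy y' hy'
      _ = _ := by ring
  · intro y hy
    simp only [massAction]
    refine norm_sum_le_of_le _ fun ρ hρ => ?_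
    have h0 : 0 ≤ k ρ := hε.le.trans (hk ρ hρ).1
    rw [norm_smul, norm_mul, Real.norm_of_nonneg h0, Real.norm_eq_abs]
    gcongr
    · exact (hk ρ hρ).2
    · exact hL ρ y hy

theorem permanentIn {R : Finset ((Fin d → ℕ) × (Fin d → ℕ))} (hR : WeaklyReversible R)
    {ε : ℝ} (hε : 0 < ε) (c : Fin d → ℝ) (hc : ∀ i, 0 < c i) :
    ∃ K, IsCompact K ∧ K ⊆ posClass R c ∧ ∀ k, Admissible R ε k →
      PermanentIn (fun t => massAction R (k t)) (posClass R c) K := by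
  obtain ⟨N0, hN0⟩ := eventually_atTop.mp ((ulyap hR hε c hc).and (eventually_gt_atTop 0))
  have hpos : 0 < N0 := (hN0 N0 le_rfl).2
  refine ⟨Box N0 ∩ {y | y - c ∈ stoich R}, ?_, fun y hy => ⟨hy.2, Box_pos hy.1⟩, fun k hk => ?_⟩
  · apply (isCompact_Box N0).inter_right
    exact (stoich R).closed_of_finiteDimensional.preimage (continuous_id.sub continuous_const)
  have hkb : ∀ t, 0 ≤ t → ∀ ρ ∈ R, ε ≤ k t ρ ∧ k t ρ ≤ ε⁻¹ := fun t ht ρ hρ => (hk ρ hρ).2 t ht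
  have hbox : ∀ x0 : Fin d → ℝ, (∀ i, 0 < x0 i) →
      ∃ N, 0 < N ∧ ULyap (env R ε) (stoich R) x0 N ∧ x0 ∈ Box N :=
    fun x0 h => ((eventually_gt_atTop 0).and ((ulyap hR hε x0 h).and (ev_Box x0 h))).exists
  have hU : ∀ {x : ℝ → Fin d → ℝ} {T : ℝ}, 0 ≤ T →
      ISol (fun τ => massAction R (k τ) (x τ)) x T → USol (env R ε) x 0 T :=
    fun hT hx => usol_of_isol (continuous_env R ε) hT hx fun τ hτ v => le_env (hkb τ hτ.1) v _
  have hst : ∀ {x : ℝ → Fin d → ℝ} {T N : ℝ} {x0 : Fin d → ℝ}, 0 ≤ T →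
      ISol (fun τ => massAction R (k τ) (x τ)) x T → x 0 = x0 → 0 < N →
      ULyap (env R ε) (stoich R) x0 N → x0 ∈ Box N → ∀ t ∈ Icc 0 T, x t ∈ Box N :=
    fun hT hx h0 hN hL hB => ustay hN hL hB (fun _ _ _ => rfl) (hU hT hx) h0
      (hx.mem fun τ => mass_mem R _ _)
  have hP : ∀ {x : ℝ → Fin d → ℝ} {T : ℝ}, 0 ≤ T →
      ISol (fun τ => massAction R (k τ) (x τ)) x T → x 0 ∈ posClass R c →
      x T ∈ posClass R c := by
    intro x T hT hx h0
    obtain ⟨N, hN, hL, hB⟩ := hbox _ h0.2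
    refine ⟨?_, Box_pos (hst hT hx rfl hN hL hB T ⟨hT, le_rfl⟩)⟩
    have := (stoich R).add_mem (hx.mem (fun τ => mass_mem R _ _) T ⟨hT, le_rfl⟩) h0.1
    simpa using this
  have hex : ∀ x₀ ∈ posClass R c, ∃ x, x 0 = x₀ ∧
      IsCSol (fun t => massAction R (k t)) (Ici 0) x ∧ ∀ t, 0 ≤ t → x t ∈ posClass R c := by
    intro x0 h0
    obtain ⟨N, hN, hL, hB⟩ := hbox _ h0.2
    have hle : exp (-N) ≤ exp N := exp_le_exp.mpr (by linarith)
    let cl : (Fin d → ℝ) → Fin d → ℝ := fun y i => max (exp (-N)) (min (exp N) (y i))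
    have hcl1 : ∀ y, cl y ∈ Box N := fun y i =>
      ⟨le_max_left _ _, max_le hle (min_le_left _ _)⟩
    have hcl2 : ∀ y ∈ Box N, cl y = y := by
      intro y hy; funext i
      simp only [cl]
      rw [min_eq_right (hy i).2, max_eq_right (hy i).1]
    have hcl3 : LipschitzWith 1 cl := by
      apply LipschitzWith.of_dist_le_mul
      intro a b
      rw [NNReal.coe_one, one_mul, dist_pi_le_iff dist_nonneg]
      intro i
      have := (((LipschitzWith.id (α := ℝ)).const_min (exp N)).const_max (exp (-N))).dist_le_mul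
        (a i) (b i)
      simp only [NNReal.coe_one, one_mul, id] at this
      exact this.trans (dist_le_pi_dist a b i)
    obtain ⟨K, L, hK0, hKL⟩ := mass_unif R hε N
    obtain ⟨x, hx0, hx⟩ := cexists (g := fun τ y => massAction R (k τ) (cl y)) (K := K) (L := L) hK0
      (fun τ hτ y y' => ((hKL _ (hkb τ hτ)).1 _ (hcl1 y) _ (hcl1 y')).trans
        (mul_le_mul_of_nonneg_left (by
          have := hcl3.dist_le_mul y y'
          rwa [NNReal.coe_one, one_mul, dist_eq_norm, dist_eq_norm] at this) hK0))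
      (fun τ hτ y => (hKL _ (hkb τ hτ)).2 _ (hcl1 y))
      (fun y hy => by
        simp only [massAction]
        refine Finset.aestronglyMeasurable_fun_sum _ fun ρ hρ => ?_
        have hc : Continuous fun τ => ∏ i, cl (y τ) i ^ ρ.1 i := by
          have := hcl3.continuous.comp hy
          exact continuous_finset_prod _ fun i _ => ((continuous_apply i).comp this).pow _
        exact ((hk ρ hρ).1.aestronglyMeasurable.mul hc.aestronglyMeasurable).smul_const _) x0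
    have hin : ∀ t, 0 ≤ t → x t ∈ Box N := by
      intro t ht
      have hi := isol_of_csol hx ht Icc_subset_Ici_self
      exact ustay hN hL hB (H := fun v y => env R ε v (cl y)) (fun y hy v => by rw [hcl2 y hy])
        (usol_of_isol (fun v => (continuous_env R ε v).comp hcl3.continuous) ht hi
          fun τ hτ v => le_env (hkb τ hτ.1) v _) hx0 (hi.mem fun τ => mass_mem R _ _) t ⟨ht, le_rfl⟩
    have hx' : IsCSol (fun t => massAction R (k t)) (Ici 0) x := by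
      intro t ht
      have ht0 : (0 : ℝ) ≤ t := ht
      have he : EqOn (fun τ => massAction R (k τ) (cl (x τ))) (fun τ => massAction R (k τ) (x τ))
          (uIcc 0 t) := by
        intro τ hτ
        rw [uIcc_of_le ht0] at hτ
        simp only [hcl2 _ (hin τ hτ.1)]
      refine ⟨(hx t ht).1.congr (he.mono uIoc_subset_uIcc), ?_⟩
      rw [← intervalIntegral.integral_congr he]
      exact (hx t ht).2
    exact ⟨x, hx0, hx', fun t ht => hP ht (isol_of_csol hx' ht Icc_subset_Ici_self) (hx0 ▸ h0)⟩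
  refine ⟨hex, ?_, ?_⟩
  · intro T hT x hx h0
    obtain ⟨y, hy0, hy, hyP⟩ := hex _ h0
    refine ⟨y, hy, hyP, fun t ht0 ht => ?_⟩
    obtain ⟨N, hN, hL, hB⟩ := hbox _ h0.2
    obtain ⟨K, L, hK0, hKL⟩ := mass_unif R hε N
    have a1 := isol_of_csol hx ht0 (Icc_subset_Ico_right ht)
    have a2 := isol_of_csol hy ht0 Icc_subset_Ici_self
    exact isol_unique ht0 hK0 a1 a2 hy0.symm fun τ hτ =>
      (hKL _ (hkb τ hτ.1)).1 _ (hst ht0 a1 rfl hN hL hB τ hτ) _ (hst ht0 a2 hy0 hN hL hB τ hτ)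
  · intro x hx h0
    have hPx : ∀ t, 0 ≤ t → x t ∈ posClass R c := fun t ht =>
      hP ht (isol_of_csol hx ht Icc_subset_Ici_self) h0
    have hUx : ∀ t0, 0 ≤ t0 → ∀ T, USol (env R ε) x t0 T := fun t0 h T =>
      (hU (le_max_right T 0) (isol_of_csol hx (le_max_right T 0) Icc_subset_Ici_self)).mono h
        (le_max_left _ _)
    have hind : ∀ j : ℕ, (∃ t0, ∀ t, t0 ≤ t → x t ∈ Box (N0 * 2 ^ j)) →
        ∃ t0, ∀ t, t0 ≤ t → x t ∈ Box N0 := by
      intro j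
      induction j with
      | zero => simp
      | succ j ih =>
        rintro ⟨t0, h⟩
        apply ih
        have h1 : N0 ≤ N0 * 2 ^ (j + 1) := le_mul_of_one_le_right hpos.le (one_le_pow₀ one_le_two)
        obtain ⟨t1, h2⟩ := ushrink (hN0 _ h1).1 (t0 := max t0 0) (hUx _ (le_max_right _ _))
          (fun t ht => ⟨h t ((le_max_left _ _).trans ht), (hPx t ((le_max_right _ _).trans ht)).1⟩)
        refine ⟨t1, fun t ht => ?_⟩
        have e : N0 * 2 ^ j = N0 * 2 ^ (j + 1) / 2 := by ring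
        rw [e]; exact h2 t ht
    obtain ⟨N, hN, hL, hB⟩ := hbox _ h0.2
    obtain ⟨j, hj⟩ := pow_unbounded_of_one_lt (N / N0) (one_lt_two (α := ℝ))
    obtain ⟨t0, h⟩ := hind j ⟨0, fun t ht => Box_mono
      (by rw [div_lt_iff₀ hpos] at hj; linarith)
      (hst ht (isol_of_csol hx ht Icc_subset_Ici_self) rfl hN hL hB t ⟨ht, le_rfl⟩)⟩
    exact ⟨max t0 0, fun t ht => ⟨h t ((le_max_left _ _).trans ht),
      (hPx t ((le_max_right _ _).trans ht)).1⟩⟩

end Vale.Agent.P072
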