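import Vale.Agent.P072.Dyn

namespace Vale.Agent.P072

open Finset Filter Real Topology

variable {d : ℕ}

/-- upper envelope of `v ⬝ f_k(x)` over all rates in `[ε, 1 / ε]` -/
noncomputable def env (R : Finset ((Fin d → ℕ) × (Fin d → ℕ))) (ε : ℝ) (v x : Fin d → ℝ) : ℝ :=
  ∑ ρ ∈ R, max (ε * ((∏ i, x i ^ ρ.1 i) * (wt v ρ.2 - wt v ρ.1)))
    (ε⁻¹ * ((∏ i, x i ^ ρ.1 i) * (wt v ρ.2 - wt v ρ.1)))

lemma continuous_env (R : Finset ((Fin d → ℕ) × (Fin d → ℕ))) (ε : ℝ) (v : Fin d → ℝ) :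
    Continuous (env R ε v) := by
  unfold env
  fun_prop

lemma le_env {R : Finset ((Fin d → ℕ) × (Fin d → ℕ))} {ε : ℝ}
    {k : (Fin d → ℕ) × (Fin d → ℕ) → ℝ} (hk : ∀ ρ ∈ R, ε ≤ k ρ ∧ k ρ ≤ ε⁻¹) (v x : Fin d → ℝ) :
    v ⬝ᵥ massAction R k x ≤ env R ε v x := by
  rw [dot_mass, env]
  apply sum_le_sum
  intro ρ hρ
  rw [mul_assoc]
  generalize (∏ i, x i ^ ρ.1 i) * (wt v ρ.2 - wt v ρ.1) = a
  rcases le_total 0 a with h | h
  · exact le_max_of_le_right (mul_le_mul_of_nonneg_right (hk ρ hρ).2 h)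
  · exact le_max_of_le_left (mul_le_mul_of_nonpos_right (hk ρ hρ).1 h)

/-- the extremal rates in direction `v` -/
noncomputable def kst (ε : ℝ) (v : Fin d → ℝ) (ρ : (Fin d → ℕ) × (Fin d → ℕ)) : ℝ :=
  if 0 ≤ wt v ρ.2 - wt v ρ.1 then max ε ε⁻¹ else min ε ε⁻¹

lemma kst_pos {ε : ℝ} (hε : 0 < ε) (v : Fin d → ℝ) (ρ : (Fin d → ℕ) × (Fin d → ℕ)) :
    0 < kst ε v ρ := by
  unfold kst
  split_ifs
  · exact lt_max_of_lt_left hε
  · exact lt_min hε (inv_pos.2 hε)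

lemma env_le (R : Finset ((Fin d → ℕ) × (Fin d → ℕ))) (ε : ℝ) (v x : Fin d → ℝ)
    (hx : ∀ y : Fin d → ℕ, 0 < ∏ i, x i ^ y i) :
    env R ε v x ≤ v ⬝ᵥ massAction R (kst ε v) x := by
  rw [dot_mass, env]
  apply sum_le_sum
  intro ρ _
  rw [mul_assoc]
  unfold kst
  split_ifs with h
  · have h1 := mul_nonneg (hx ρ.1).le h
    exact max_le (mul_le_mul_of_nonneg_right (le_max_left _ _) h1)
      (mul_le_mul_of_nonneg_right (le_max_right _ _) h1)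
  · have h1 := mul_nonpos_of_nonneg_of_nonpos (hx ρ.1).le (not_le.1 h).le
    exact max_le (mul_le_mul_of_nonpos_right (min_le_left _ _) h1)
      (mul_le_mul_of_nonpos_right (min_le_right _ _) h1)

/-- the Lyapunov package at scale `N`, for an envelope `G` -/
def ULyap (G : (Fin d → ℝ) → (Fin d → ℝ) → ℝ) (S : Submodule ℝ (Fin d → ℝ)) (c : Fin d → ℝ)
    (N : ℝ) : Prop :=
  ∃ (Λ : Finset ((Fin d → ℝ) × ℝ)) (κ : ℝ), 0 < κ ∧ ((0, 0) ∈ Λ) ∧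
    (∀ l ∈ Λ, l.1 ⬝ᵥ c - l.2 ≤ 0) ∧
    (∀ x ∈ Box N, x - c ∈ S → ∀ l ∈ Λ, (∀ l' ∈ Λ, l'.1 ⬝ᵥ x - l'.2 ≤ l.1 ⬝ᵥ x - l.2) →
      G l.1 x ≤ 0 ∧ (0 < l.1 ⬝ᵥ x - l.2 → G l.1 x ≤ -κ)) ∧
    (∀ x ∈ Box N, (∀ l ∈ Λ, l.1 ⬝ᵥ x - l.2 ≤ 0) → x ∈ Box (N / 2))

theorem ulyap {R : Finset ((Fin d → ℕ) × (Fin d → ℕ))} (hR : WeaklyReversible R)
    {ε : ℝ} (hε : 0 < ε) (c : Fin d → ℝ)
    (hc : ∀ i, 0 < c i) : ∀ᶠ N in atTop, ULyap (env R ε) (stoich R) c N := by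
  classical
  have h1 : ∀ v : Fin d → ℝ, ∃ δ, 0 < δ ∧ δ ≤ 1 / 2 ∧ (v ≠ 0 → ∃ i, δ < |v i|) ∧
      ∀ᶠ N in atTop, ∀ x, GoodAt δ v N x →
      env R ε v x ≤ 0 ∧ ((∃ ρ ∈ R, v ⬝ᵥ vec ρ ≠ 0) → env R ε v x < 0) := by
    intro v
    have e1 : ∀ᶠ δ in 𝓝[>] (0:ℝ), δ ≤ 1 / 2 :=
      (eventually_le_nhds (by norm_num : (0:ℝ) < 1 / 2)).filter_mono nhdsWithin_le_nhds
    have e2 : ∀ᶠ δ in 𝓝[>] (0:ℝ), v ≠ 0 → ∃ i, δ < |v i| := by
      by_cases hv : v = 0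
      · exact Eventually.of_forall fun _ h => absurd hv h
      · obtain ⟨i, hi⟩ := Function.ne_iff.mp hv
        exact ((eventually_lt_nhds (abs_pos.mpr hi)).filter_mono nhdsWithin_le_nhds).mono
          fun δ h _ => ⟨i, h⟩
    obtain ⟨δ, h⟩ := ((flux hR (k := kst ε v) (fun ρ _ => kst_pos hε v ρ) v).and
      (e1.and (e2.and self_mem_nhdsWithin))).exists
    refine ⟨δ, h.2.2.2, h.2.1, h.2.2.1, h.1.mono fun N hN x hx => ?_⟩
    have h3 := env_le R ε v x fun y => (exp_pos _).trans_le (mono_bounds hx y).1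
    exact ⟨h3.trans (hN x hx).1, fun hne => h3.trans_lt ((hN x hx).2 hne)⟩
  choose δ hδ0 hδ1 hδ2 hδ3 using h1
  obtain ⟨Λ, -, ⟨l00, hl00, -⟩, hev⟩ := gauge hδ0 (-1) (univ : Finset (Fin d)) 0 1 (by norm_num)
  have e1 := (eventually_all_finset Λ).mpr fun l _ => hδ3 l.1
  have e2 : ∀ᶠ N in atTop, ∀ l ∈ Λ, GoodAt (δ l.1) l.1 N c → l.1 = 0 := by
    rw [eventually_all_finset]
    intro l _
    by_cases hv : l.1 = 0
    · exact Eventually.of_forall fun _ _ => hv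
    · obtain ⟨i, hi⟩ := hδ2 l.1 hv
      rcases lt_abs.mp hi with h | h
      · filter_upwards [ev_lt (c i) (show (0:ℝ) < l.1 i - δ l.1 by linarith)] with N hN hg
        have := (hg i).1
        simp at hN; linarith
      · filter_upwards [ev_lt (c i)⁻¹ (show l.1 i + δ l.1 < 0 by linarith)] with N hN hg
        have := (hg i).2
        rw [zero_mul, exp_zero, inv_mul_lt_iff₀ (hc i)] at hN
        linarith
  filter_upwards [hev, e1, e2, ev_Box c hc, eventually_ge_atTop 0] with N hev e1 e2 e3 hN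
  have hv : ∀ (l : Lab (Fin d)) x, val univ l N x = l.1 ⬝ᵥ x - l.2 N := fun l x => rfl
  have hgood : ∀ x ∈ Box N, ∀ l ∈ Λ, Act univ Λ l N x → GoodAt (δ l.1) l.1 N x := by
    intro x hx l hl ha i
    exact hev x (fun i _ => by simpa using hx i) l hl ha i (mem_univ _)
  obtain ⟨l0, hl0, hl0a⟩ := exists_max_image Λ (fun l => val univ l N c) ⟨_, hl00⟩
  have hl0z : l0.1 = 0 := e2 l0 hl0 (hgood c e3 l0 hl0 hl0a)
  have hκ : ∀ l ∈ Λ, ∃ κ, 0 < κ ∧ ((∃ ρ ∈ R, l.1 ⬝ᵥ vec ρ ≠ 0) →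
      ∀ x, GoodAt (δ l.1) l.1 N x → env R ε l.1 x ≤ -κ) := by
    intro l hl
    by_cases hne : ∃ ρ ∈ R, l.1 ⬝ᵥ vec ρ ≠ 0
    · by_cases hx : {x | GoodAt (δ l.1) l.1 N x}.Nonempty
      · obtain ⟨x0, hx0, hmax⟩ := (isCompact_GoodAt _ _ _).exists_isMaxOn hx
          (continuous_env R ε l.1).continuousOn
        refine ⟨-(env R ε l.1 x0), by linarith [(e1 l hl x0 hx0).2 hne],
          fun _ x hx => ?_⟩
        rw [neg_neg]; exact hmax hx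
      · exact ⟨1, one_pos, fun _ x h => absurd ⟨x, h⟩ hx⟩
    · exact ⟨1, one_pos, fun h => absurd h hne⟩
  choose! κ hκ0 hκ1 using hκ
  obtain ⟨lm, hlm, hlmin⟩ := exists_min_image Λ κ ⟨_, hl0⟩
  let g : Lab (Fin d) → (Fin d → ℝ) × ℝ := fun l => (l.1, l.2 N - l0.2 N)
  have hle : ∀ l ∈ Λ, l.1 ⬝ᵥ c - (l.2 N - l0.2 N) ≤ 0 := by
    intro l hl
    have := hl0a l hl
    simp only [hv, hl0z, zero_dotProduct] at this
    linarith
  refine ⟨Λ.image g, κ lm, hκ0 _ hlm, mem_image.mpr ⟨l0, hl0, by simp [g, hl0z]⟩, ?_, ?_, ?_⟩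
  · intro l1 hl1
    obtain ⟨l, hl, rfl⟩ := mem_image.mp hl1
    exact hle l hl
  · intro x hx hxS l1 hl1 ha
    obtain ⟨l, hl, rfl⟩ := mem_image.mp hl1
    have hg := hgood x hx l hl (fun l' hl' => by
      have := ha (g l') (mem_image_of_mem _ hl')
      simp only [hv, g] at this ⊢; linarith)
    refine ⟨(e1 l hl x hg).1, fun hpos => ?_⟩
    have hne : ∃ ρ ∈ R, l.1 ⬝ᵥ vec ρ ≠ 0 := by
      by_contra hcon
      push Not at hcon
      have h0 : ∀ u ∈ stoich R, l.1 ⬝ᵥ u = 0 := by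
        intro u hu
        induction hu using Submodule.span_induction with
        | mem u hu => obtain ⟨ρ, hρ, rfl⟩ := hu; exact hcon ρ hρ
        | zero => simp
        | add a b _ _ ha hb => rw [dotProduct_add, ha, hb, add_zero]
        | smul a b _ hb => rw [dotProduct_smul, hb, smul_zero]
      have h1 := h0 _ hxS
      rw [dotProduct_sub] at h1
      have h2 := hle l hl
      simp only [g] at hpos
      linarith
    exact (hκ1 l hl hne x hg).trans (neg_le_neg (hlmin l hl))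
  · intro x hx hall
    have hg := hgood x hx l0 hl0 (fun l' hl' => by
      have := hall (g l') (mem_image_of_mem _ hl')
      simp only [hv, g, hl0z, zero_dotProduct] at this ⊢; linarith)
    intro i
    have h1 := hg i
    have h2 := hδ1 l0.1
    have h3 : l0.1 i = 0 := by rw [hl0z]; rfl
    rw [h3] at h1
    exact ⟨(exp_le_exp.mpr (by nlinarith)).trans h1.1, h1.2.trans (exp_le_exp.mpr (by nlinarith))⟩

end Vale.Agent.P072
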